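import Crest.Agent.S0324.Area

/-!
Row 211: the statement of S0324 follows from the statement of S0325
(`μH[2]` and `μHE[2]` differ by a positive finite constant; planar bounded sets have finite area).
-/

set_option autoImplicit false
open MeasureTheory
open scoped ENNReal

namespace Crest.Agent.S0324

/-- The orthogonal projection along a vector, as used in the statements of row 211, sends
bounded sets to bounded sets. -/
lemma isBounded_proj_image (v : E3) (s : Set E3) (hs : Bornology.IsBounded s) :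
    Bornology.IsBounded ((fun y : E3 => y - inner ℝ y v • v) '' s) := by
  obtain ⟨R, hR⟩ := hs.exists_norm_le
  refine (Metric.isBounded_iff_subset_closedBall (0 : E3)).mpr ⟨R + R * ‖v‖ * ‖v‖, ?_⟩
  rintro _ ⟨y, hy, rfl⟩
  rw [mem_closedBall_zero_iff]
  have h1 : ‖y‖ ≤ R := hR y hy
  have h2 : |inner ℝ y v| ≤ ‖y‖ * ‖v‖ := abs_real_inner_le_norm y v
  calc ‖y - inner ℝ y v • v‖ ≤ ‖y‖ + ‖inner ℝ y v • v‖ := norm_sub_le _ _
    _ = ‖y‖ + |inner ℝ y v| * ‖v‖ := by rw [norm_smul, Real.norm_eq_abs]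
    _ ≤ R + R * ‖v‖ * ‖v‖ := by
      have h3 : |inner ℝ y v| ≤ R * ‖v‖ :=
        h2.trans (mul_le_mul_of_nonneg_right h1 (norm_nonneg v))
      have h4 := mul_le_mul_of_nonneg_right h3 (norm_nonneg v)
      linarith

/-- The standard tetrahedron is bounded. -/
lemma isBounded_K0 : Bornology.IsBounded
    (convexHull ℝ ({!₂[1, 0, 0], !₂[-1, 0, 0], !₂[0, 1, Real.sqrt 2], !₂[0, -1, Real.sqrt 2]} :
      Set E3)) := by
  rw [isBounded_convexHull]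
  exact (Set.toFinite _).isBounded

/-- Projections of bounded sets have finite area. -/
lemma proj_image_lt_top (v : E3) (hv : ‖v‖ = 1) (s : Set E3) (hs : Bornology.IsBounded s) :
    μHE[2] ((fun y : E3 => y - inner ℝ y v • v) '' s) < ⊤ := by
  have hv0 : v ≠ 0 := by
    intro h
    rw [h, norm_zero] at hv
    exact zero_ne_one hv
  refine planar_lt_top v hv0 _ (isBounded_proj_image v s hs) ?_
  rintro _ ⟨y, -, rfl⟩
  rw [inner_sub_left, inner_smul_left, real_inner_self_eq_norm_sq, hv]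
  simp

/-- S0324 from S0325. -/
theorem s0324_of_s0325
    (h325 : ((∀ v : EuclideanSpace ℝ (Fin 3), ‖v‖ = 1 →
        ENNReal.ofReal (Real.sqrt 2) ≤ μHE[2] ((fun y => y - inner ℝ y v • v) '' convexHull ℝ {!₂[1, 0, 0], !₂[-1, 0, 0], !₂[0, 1, Real.sqrt 2], !₂[0, -1, Real.sqrt 2]})) ∧
      ∃ v : EuclideanSpace ℝ (Fin 3), ‖v‖ = 1 ∧
        μHE[2] ((fun y => y - inner ℝ y v • v) '' convexHull ℝ {!₂[1, 0, 0], !₂[-1, 0, 0], !₂[0, 1, Real.sqrt 2], !₂[0, -1, Real.sqrt 2]}) = ENNReal.ofReal (Real.sqrt 2)) ∧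
    ∀ ε : ℝ, 0 < ε → ε ≤ 1 / 2000 →
      ∃ (u p q r : Fin (2 * ⌈2 / ε ^ 2⌉₊) → EuclideanSpace ℝ (Fin 3)),
        (∀ i, ‖u i‖ = 1) ∧
        (∀ i, inner ℝ (p i) (u i) = 0 ∧ inner ℝ (q i) (u i) = 0 ∧ inner ℝ (r i) (u i) = 0) ∧
        convexHull ℝ {!₂[1, 0, 0], !₂[-1, 0, 0], !₂[0, 1, Real.sqrt 2], !₂[0, -1, Real.sqrt 2]} ⊆
          ⋃ i, {x : EuclideanSpace ℝ (Fin 3) | ∃ b ∈ convexHull ℝ {p i, q i, r i}, ∃ t : ℝ, x = b + t • u i} ∧
        abs ((∑ i, (μHE[2] (convexHull ℝ ({p i, q i, r i} : Set (EuclideanSpace ℝ (Fin 3))))).toReal) / Real.sqrt 2 -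
            (1 / 2 - 13 / 6000 * ε ^ 2)) ≤ 2 * ε ^ 4) :
    ∃ (m : ℕ) (u p q r : Fin m → EuclideanSpace ℝ (Fin 3)),
      (∀ i, ‖u i‖ = 1) ∧
      (∀ i, inner ℝ (p i) (u i) = 0 ∧ inner ℝ (q i) (u i) = 0 ∧ inner ℝ (r i) (u i) = 0) ∧
      convexHull ℝ {!₂[1, 0, 0], !₂[-1, 0, 0], !₂[0, 1, Real.sqrt 2], !₂[0, -1, Real.sqrt 2]} ⊆
        ⋃ i, {x : EuclideanSpace ℝ (Fin 3) | ∃ b ∈ convexHull ℝ {p i, q i, r i}, ∃ t : ℝ, x = b + t • u i} ∧
      ∃ δ : ℝ, 0 < δ ∧ ∀ v : EuclideanSpace ℝ (Fin 3), ‖v‖ = 1 →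
        ∑ i, (μH[(2 : ℝ)] (convexHull ℝ {p i, q i, r i})).toReal + δ ≤
          (μH[(2 : ℝ)] ((fun y => y - inner ℝ y v • v) '' convexHull ℝ {!₂[1, 0, 0], !₂[-1, 0, 0], !₂[0, 1, Real.sqrt 2], !₂[0, -1, Real.sqrt 2]})).toReal / 2 := by
  obtain ⟨⟨hmin, -⟩, hcov⟩ := h325
  obtain ⟨u, p, q, r, hu, hperp, hsub, habs⟩ := hcov (1 / 2000) (by norm_num) le_rfl
  refine ⟨_, u, p, q, r, hu, hperp, hsub, ?_⟩
  obtain ⟨C, hC0, hCtop, hC⟩ := exists_hausdorff_const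
  have hc : 0 < C.toReal := ENNReal.toReal_pos hC0 hCtop
  have hconv : ∀ s : Set E3, (μHE[2] s).toReal = C.toReal * (μH[(2 : ℝ)] s).toReal := by
    intro s
    rw [hC s, ENNReal.toReal_mul]
  have hs2 : 0 < Real.sqrt 2 := Real.sqrt_pos.mpr (by norm_num)
  set A : ℝ := ∑ i, (μHE[2] (convexHull ℝ ({p i, q i, r i} : Set E3))).toReal with hA
  have hA2 : A = C.toReal * ∑ i, (μH[(2 : ℝ)] (convexHull ℝ ({p i, q i, r i} : Set E3))).toReal := by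
    rw [hA, Finset.mul_sum]
    exact Finset.sum_congr rfl (fun i _ => hconv _)
  have hAle : A ≤ Real.sqrt 2 * (1 / 2 - 13 / 6000 * (1 / 2000) ^ 2 + 2 * (1 / 2000) ^ 4) := by
    have h1 := (abs_le.mp habs).2
    have h2 : A / Real.sqrt 2 ≤ 1 / 2 - 13 / 6000 * (1 / 2000) ^ 2 + 2 * (1 / 2000) ^ 4 := by
      linarith
    rw [div_le_iff₀ hs2] at h2
    linarith
  set γ : ℝ := 13 / 6000 * (1 / 2000) ^ 2 - 2 * (1 / 2000) ^ 4 with hγ
  have hγpos : 0 < γ := by rw [hγ]; norm_num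
  refine ⟨Real.sqrt 2 * γ / C.toReal, by positivity, ?_⟩
  intro v hv
  have hfin := proj_image_lt_top v hv _ isBounded_K0
  have hge := hmin v hv
  have hge' : Real.sqrt 2 ≤ (μHE[2] ((fun y : E3 => y - inner ℝ y v • v) '' convexHull ℝ
      {!₂[1, 0, 0], !₂[-1, 0, 0], !₂[0, 1, Real.sqrt 2], !₂[0, -1, Real.sqrt 2]})).toReal := by
    rw [← ENNReal.ofReal_le_iff_le_toReal hfin.ne]
    exact hge
  rw [hconv] at hge'
  have hsum : ∑ i, (μH[(2 : ℝ)] (convexHull ℝ ({p i, q i, r i} : Set E3))).toReal =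
      A / C.toReal := by
    rw [hA2]; field_simp
  rw [hsum]
  have h3 : A / C.toReal + Real.sqrt 2 * γ / C.toReal ≤ Real.sqrt 2 / 2 / C.toReal := by
    rw [← add_div]
    apply div_le_div_of_nonneg_right _ hc.le
    rw [hγ]
    linarith
  have h4 : Real.sqrt 2 / 2 / C.toReal ≤ (μH[(2 : ℝ)] ((fun y : E3 => y - inner ℝ y v • v) ''
      convexHull ℝ {!₂[1, 0, 0], !₂[-1, 0, 0], !₂[0, 1, Real.sqrt 2], !₂[0, -1, Real.sqrt 2]})).toReal / 2 := by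
    rw [div_le_iff₀ hc]
    linarith
  linarith

end Crest.Agent.S0324
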