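import Mathlib

/-!
Row 211, WP-E: parameters and definitions of the explicit cover of the tetrahedron
`K = {(x, y, z) : |y| ≤ τ, |x| ≤ 1 - τ}`, `τ = z / √2`, by `2 * (nC + 1)` triangular cylinders.
Definitions only (shared by `CoverIneq`, `CoverSum`, `CoverGeom`).
-/

set_option autoImplicit false

namespace Crest.Agent.S0324

/-- Membership in a "lower" cylinder, in coordinates `(x, y, τ)`: the cylinder has axis direction
`(1, wy, wt)`, and its cross-section with the plane `x = 0` is the triangle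
`tL * ρ ≤ η ≤ tR * ρ`, `ρ ≤ R` (coordinates `η = y`, `ρ = τ`). -/
def inLower (tL tR R wy wt : ℝ) (x y τ : ℝ) : Prop :=
  tL * (τ - wt * x) ≤ y - wy * x ∧ y - wy * x ≤ tR * (τ - wt * x) ∧ τ - wt * x ≤ R

/-- Number of tag intervals. -/
def nC : ℕ := 200000

/-- Tilt parameter. -/
noncomputable def cC : ℝ := 1 / 100

/-- Cap margin. -/
noncomputable def mC : ℝ := 3 / 10 ^ 7

/-- Tags `c_i = -1 + i / 100000`, `i = 0, …, nC`. -/
noncomputable def tagC (i : ℕ) : ℝ := -1 + (i : ℝ) / 100000

/-- Left wedge slope of cylinder `i`. -/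
noncomputable def thatL (i : ℕ) : ℝ := if i = 0 then -1 else (tagC (i - 1) + tagC i) / 2

/-- Right wedge slope of cylinder `i`. -/
noncomputable def thatR (i : ℕ) : ℝ := if i = nC then 1 else (tagC i + tagC (i + 1)) / 2

/-- Cap of cylinder `i`. -/
noncomputable def capR (i : ℕ) : ℝ := 1 / 2 + cC ^ 2 * (tagC i ^ 2 + tagC i ^ 4) / 4 + mC

/-- `y`-component of the axis of cylinder `i`. -/
noncomputable def wyC (i : ℕ) : ℝ := cC * (tagC i ^ 2 + 1) / 2

/-- `τ`-component of the axis of cylinder `i`. -/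
noncomputable def wtC (i : ℕ) : ℝ := cC * tagC i

lemma tagC_zero : tagC 0 = -1 := by simp [tagC]

lemma tagC_nC : tagC nC = 1 := by
  simp only [tagC, nC]; norm_num

lemma tagC_succ (i : ℕ) : tagC (i + 1) = tagC i + 1 / 100000 := by
  simp only [tagC]; push_cast; ring

lemma tagC_mem (i : ℕ) (hi : i < nC + 1) : -1 ≤ tagC i ∧ tagC i ≤ 1 := by
  have h1 : (i : ℝ) ≤ 200000 := by
    have : i ≤ 200000 := by simpa [nC] using Nat.lt_succ_iff.mp hi
    exact_mod_cast this
  have h0 : (0 : ℝ) ≤ (i : ℝ) := Nat.cast_nonneg i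
  simp only [tagC]
  constructor <;> linarith

lemma thatL_lt_thatR (i : ℕ) (hi : i < nC + 1) : thatL i < thatR i := by
  have hmem := tagC_mem i hi
  unfold thatL thatR
  by_cases h0 : i = 0
  · subst h0
    have hn : (0 : ℕ) ≠ nC := by simp [nC]
    rw [if_pos rfl, if_neg hn, tagC_succ, tagC_zero]
    norm_num
  · rw [if_neg h0]
    obtain ⟨k, rfl⟩ := Nat.exists_eq_succ_of_ne_zero h0
    by_cases hn : k + 1 = nC
    · rw [if_pos hn]
      have h1 : tagC (k + 1) = 1 := by rw [hn, tagC_nC]
      have h2 := tagC_succ k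
      simp only [Nat.succ_eq_add_one, Nat.add_sub_cancel] at *
      linarith
    · rw [if_neg hn]
      have h2 := tagC_succ k
      have h3 := tagC_succ (k + 1)
      simp only [Nat.succ_eq_add_one, Nat.add_sub_cancel] at *
      linarith

lemma capR_pos (i : ℕ) : 0 < capR i := by
  unfold capR cC mC
  positivity

end Crest.Agent.S0324
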