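/-
Row 211, WP-E (helper94): measure-free core of the explicit cylinder cover of the tetrahedron
`K = {(x,y,z) : |y| ≤ τ, |x| ≤ 1 - τ}`, `τ = z/√2`.

* `cover_core`: the key real inequality (a point of `K` lying in lower wedge with tag `t` and
  in upper wedge with tag `u` is below the lower cap or below the upper cap).
* `exists_index`: discrete intermediate value lemma used to pick the wedge.
-/
import Mathlib

set_option autoImplicit false

namespace Crest.Agent.S0324.Ineq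

/-- Discrete intermediate value lemma. -/
theorem exists_index (h : ℕ → ℝ) (y : ℝ) (n : ℕ) (h0 : h 0 ≤ y) (hn : y ≤ h (n + 1)) :
    ∃ i, i ≤ n ∧ h i ≤ y ∧ y ≤ h (i + 1) := by
  induction n with
  | zero => exact ⟨0, le_rfl, h0, hn⟩
  | succ n ih =>
    by_cases hy : y ≤ h (n + 1)
    · obtain ⟨i, hi, h1, h2⟩ := ih hy
      exact ⟨i, Nat.le_succ_of_le hi, h1, h2⟩
    · exact ⟨n + 1, le_rfl, le_of_lt (not_le.mp hy), hn⟩

/-- The exact identity behind the cover. -/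
theorem cover_identity (c t u x y τ : ℝ) :
    ((τ - c * t * x) + (1 - τ + c * u * y) - 1) *
        (1 + (c * (t ^ 2 + 1) / 2) * (c * (u ^ 2 + 1) / 2)) =
      c * u * t * ((τ - c * t * x) - (1 - τ + c * u * y))
        + c * (u ^ 2 * (c * (t ^ 2 + 1) / 2) * (1 - τ + c * u * y)
            + t ^ 2 * (c * (u ^ 2 + 1) / 2) * (τ - c * t * x))
        + c * (y - (c * (t ^ 2 + 1) / 2) * x - t * (τ - c * t * x)) *
            (u + t * (c * (u ^ 2 + 1) / 2))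
        + c * (x + (c * (u ^ 2 + 1) / 2) * y - u * (1 - τ + c * u * y)) *
            (u * (c * (t ^ 2 + 1) / 2) - t) := by
  ring

/-- Bound for the mesh terms. -/
theorem cover_mesh (c Δ t u p q a b d1 d2 : ℝ)
    (hc0 : 0 ≤ c) (hΔ : 0 ≤ Δ)
    (ht : |t| ≤ 1) (hu : |u| ≤ 1) (hp0 : 0 ≤ p) (hq0 : 0 ≤ q) (hpc : p ≤ c) (hqc : q ≤ c)
    (ha0 : 0 ≤ a) (hb0 : 0 ≤ b) (hab : a + b ≤ 1 + c)
    (h1 : |d1| ≤ Δ / 2 * a) (h2 : |d2| ≤ Δ / 2 * b) :
    c * d1 * (u + t * q) + c * d2 * (u * p - t) ≤ c * (1 + c) ^ 2 * Δ / 2 := by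
  have hM1 : d1 * (u + t * q) ≤ Δ / 2 * a * (1 + c) := by
    have h5 : |u + t * q| ≤ 1 + c := by
      have : |t * q| ≤ 1 * c := by
        rw [abs_mul, abs_of_nonneg hq0]
        exact mul_le_mul ht hqc hq0 (by norm_num)
      calc |u + t * q| ≤ |u| + |t * q| := abs_add_le _ _
        _ ≤ 1 + c := by linarith
    calc d1 * (u + t * q) ≤ |d1 * (u + t * q)| := le_abs_self _
      _ = |d1| * |u + t * q| := abs_mul _ _
      _ ≤ (Δ / 2 * a) * (1 + c) := mul_le_mul h1 h5 (abs_nonneg _) (by positivity)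
  have hM2 : d2 * (u * p - t) ≤ Δ / 2 * b * (1 + c) := by
    have h5 : |u * p - t| ≤ 1 + c := by
      have : |u * p| ≤ 1 * c := by
        rw [abs_mul, abs_of_nonneg hp0]
        exact mul_le_mul hu hpc hp0 (by norm_num)
      calc |u * p - t| ≤ |u * p| + |t| := abs_sub _ _
        _ ≤ 1 + c := by linarith
    calc d2 * (u * p - t) ≤ |d2 * (u * p - t)| := le_abs_self _
      _ = |d2| * |u * p - t| := abs_mul _ _
      _ ≤ (Δ / 2 * b) * (1 + c) := mul_le_mul h2 h5 (abs_nonneg _) (by positivity)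
  have e1 := mul_le_mul_of_nonneg_left hM1 hc0
  have e2 := mul_le_mul_of_nonneg_left hM2 hc0
  have h6 : 0 ≤ c * (Δ / 2) * (1 + c) := by positivity
  have e3 := mul_le_mul_of_nonneg_left hab h6
  linarith

/-- Lower bound for the main term. -/
theorem cover_main (c m t u p q : ℝ)
    (hc0 : 0 ≤ c) (hm0 : 0 ≤ m)
    (ht : |t| ≤ 1) (hu : |u| ≤ 1) (hp0 : 0 ≤ p) (hq0 : 0 ≤ q) (hpc : p ≤ c) (hqc : q ≤ c) :
    c ^ 2 / 4 * (t ^ 2 + u ^ 2 + 2 * t ^ 2 * u ^ 2)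
      + (2 * m - c ^ 3 / 2 - c ^ 4 - 2 * m * c ^ 2) ≤
    (c ^ 2 / 4 * (t ^ 2 + t ^ 4) + m) * (1 + p * q - c * u * t - c * t ^ 2 * q)
      + (c ^ 2 / 4 * (u ^ 2 + u ^ 4) + m) * (1 + p * q + c * u * t - c * u ^ 2 * p) := by
  have ht2' : t ^ 2 ≤ 1 := (sq_le_one_iff_abs_le_one t).mpr ht
  have hu2' : u ^ 2 ≤ 1 := (sq_le_one_iff_abs_le_one u).mpr hu
  have ht0 : 0 ≤ t ^ 2 := sq_nonneg t
  have hu0 : 0 ≤ u ^ 2 := sq_nonneg u
  have hc2 : 0 ≤ c ^ 2 := sq_nonneg c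
  have ht4 : t ^ 4 ≤ 1 := by
    calc t ^ 4 = t ^ 2 * t ^ 2 := by ring
      _ ≤ 1 * 1 := mul_le_mul ht2' ht2' ht0 (by norm_num)
      _ = 1 := by norm_num
  have hu4 : u ^ 4 ≤ 1 := by
    calc u ^ 4 = u ^ 2 * u ^ 2 := by ring
      _ ≤ 1 * 1 := mul_le_mul hu2' hu2' hu0 (by norm_num)
      _ = 1 := by norm_num
  have ht40 : 0 ≤ t ^ 4 := by positivity
  have hu40 : 0 ≤ u ^ 4 := by positivity
  have hAt0 : 0 ≤ c ^ 2 / 4 * (t ^ 2 + t ^ 4) := by positivity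
  have hBu0 : 0 ≤ c ^ 2 / 4 * (u ^ 2 + u ^ 4) := by positivity
  have hAt : c ^ 2 / 4 * (t ^ 2 + t ^ 4) ≤ c ^ 2 / 2 := by
    have := mul_le_mul_of_nonneg_left (add_le_add ht2' ht4) (by positivity : 0 ≤ c ^ 2 / 4)
    linarith
  have hBu : c ^ 2 / 4 * (u ^ 2 + u ^ 4) ≤ c ^ 2 / 2 := by
    have := mul_le_mul_of_nonneg_left (add_le_add hu2' hu4) (by positivity : 0 ≤ c ^ 2 / 4)
    linarith
  set A : ℝ := c ^ 2 / 4 * (t ^ 2 + t ^ 4) + m with hAdef
  set B : ℝ := c ^ 2 / 4 * (u ^ 2 + u ^ 4) + m with hBdef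
  have hA0 : 0 ≤ A := by rw [hAdef]; linarith
  have hB0 : 0 ≤ B := by rw [hBdef]; linarith
  have hAle : A ≤ c ^ 2 / 2 + m := by rw [hAdef]; linarith
  have hBle : B ≤ c ^ 2 / 2 + m := by rw [hBdef]; linarith
  have hpq0 : 0 ≤ p * q := mul_nonneg hp0 hq0
  have hut : |u * t| ≤ 1 := by
    rw [abs_mul]
    have : |u| * |t| ≤ 1 * 1 := mul_le_mul hu ht (abs_nonneg _) (by norm_num)
    linarith
  have e0 : A * (1 + p * q - c * u * t - c * t ^ 2 * q)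
      + B * (1 + p * q + c * u * t - c * u ^ 2 * p) =
      (A + B) + (A + B) * (p * q) - c * ((u * t) * (A - B))
        - (c * A) * (t ^ 2 * q) - (c * B) * (u ^ 2 * p) := by
    ring
  have e1 : 0 ≤ (A + B) * (p * q) := mul_nonneg (by linarith) hpq0
  have e2 : c * ((u * t) * (A - B)) ≤ c * (c ^ 2 / 2) := by
    have hAB : |A - B| ≤ c ^ 2 / 2 := by
      rw [abs_le, hAdef, hBdef]
      constructor <;> linarith
    have h7 : (u * t) * (A - B) ≤ c ^ 2 / 2 := by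
      calc (u * t) * (A - B) ≤ |(u * t) * (A - B)| := le_abs_self _
        _ = |u * t| * |A - B| := abs_mul _ _
        _ ≤ 1 * (c ^ 2 / 2) := mul_le_mul hut hAB (abs_nonneg _) (by norm_num)
        _ = c ^ 2 / 2 := one_mul _
    exact mul_le_mul_of_nonneg_left h7 hc0
  have e3 : (c * A) * (t ^ 2 * q) ≤ (c * A) * (1 * c) := by
    have h8 : t ^ 2 * q ≤ 1 * c := mul_le_mul ht2' hqc hq0 (by norm_num)
    exact mul_le_mul_of_nonneg_left h8 (mul_nonneg hc0 hA0)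
  have e4 : (c * B) * (u ^ 2 * p) ≤ (c * B) * (1 * c) := by
    have h8 : u ^ 2 * p ≤ 1 * c := mul_le_mul hu2' hpc hp0 (by norm_num)
    exact mul_le_mul_of_nonneg_left h8 (mul_nonneg hc0 hB0)
  have e5 := mul_le_mul_of_nonneg_left (add_le_add hAle hBle) hc2
  have e6 : A + B = c ^ 2 / 4 * (t ^ 2 + u ^ 2 + 2 * t ^ 2 * u ^ 2)
      + c ^ 2 / 4 * (t ^ 2 - u ^ 2) ^ 2 + 2 * m := by
    rw [hAdef, hBdef]; ring
  have e7 : 0 ≤ c ^ 2 / 4 * (t ^ 2 - u ^ 2) ^ 2 := by positivity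
  rw [e0]
  linarith

/-- The key inequality.  `a = τ - c t x` is the (oblique) height of the point in the lower wedge of
tag `t`, `b = 1 - τ + c u y` its height in the upper wedge of tag `u`; `h1`, `h2` say that the point
lies in these wedges (of angular half-width `Δ/2`).  Then one of the two caps covers the point. -/
theorem cover_core (c Δ m t u x y τ : ℝ)
    (hc0 : 0 ≤ c) (hc1 : c ≤ 1 / 2) (hΔ : 0 ≤ Δ) (hm0 : 0 ≤ m)
    (hm : c ^ 3 / 2 + c ^ 4 + c * (1 + c) ^ 2 * Δ / 2 ≤ 2 * m * (1 - c ^ 2))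
    (ht : |t| ≤ 1) (hu : |u| ≤ 1) (hy : |y| ≤ τ) (hx : |x| ≤ 1 - τ)
    (h1 : |y - c * (t ^ 2 + 1) / 2 * x - t * (τ - c * t * x)| ≤ Δ / 2 * (τ - c * t * x))
    (h2 : |x + c * (u ^ 2 + 1) / 2 * y - u * (1 - τ + c * u * y)| ≤ Δ / 2 * (1 - τ + c * u * y)) :
    τ - c * t * x ≤ 1 / 2 + c ^ 2 / 4 * (t ^ 2 + t ^ 4) + m ∨
      1 - τ + c * u * y ≤ 1 / 2 + c ^ 2 / 4 * (u ^ 2 + u ^ 4) + m := by
  by_contra hcon
  rw [not_or, not_le, not_le] at hcon
  obtain ⟨hA, hB⟩ := hcon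
  have ht2' : t ^ 2 ≤ 1 := (sq_le_one_iff_abs_le_one t).mpr ht
  have hu2' : u ^ 2 ≤ 1 := (sq_le_one_iff_abs_le_one u).mpr hu
  have ht0 : 0 ≤ t ^ 2 := sq_nonneg t
  have hu0 : 0 ≤ u ^ 2 := sq_nonneg u
  have hid := cover_identity c t u x y τ
  have hp0 : 0 ≤ c * (t ^ 2 + 1) / 2 := by positivity
  have hq0 : 0 ≤ c * (u ^ 2 + 1) / 2 := by positivity
  have hpc : c * (t ^ 2 + 1) / 2 ≤ c := by
    have := mul_le_mul_of_nonneg_left ht2' hc0
    linarith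
  have hqc : c * (u ^ 2 + 1) / 2 ≤ c := by
    have := mul_le_mul_of_nonneg_left hu2' hc0
    linarith
  have ha0 : 0 ≤ τ - c * t * x := by
    have : 0 ≤ c ^ 2 / 4 * (t ^ 2 + t ^ 4) := by positivity
    linarith
  have hb0 : 0 ≤ 1 - τ + c * u * y := by
    have : 0 ≤ c ^ 2 / 4 * (u ^ 2 + u ^ 4) := by positivity
    linarith
  have hab : (τ - c * t * x) + (1 - τ + c * u * y) ≤ 1 + c := by
    have h3 : u * y ≤ τ := by
      have e1 : u * y ≤ |u * y| := le_abs_self _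
      rw [abs_mul] at e1
      have e2 : |u| * |y| ≤ 1 * τ := mul_le_mul hu hy (abs_nonneg _) (by norm_num)
      linarith
    have h4 : -(t * x) ≤ 1 - τ := by
      have e1 : -(t * x) ≤ |t * x| := neg_le_abs _
      rw [abs_mul] at e1
      have e2 : |t| * |x| ≤ 1 * (1 - τ) := mul_le_mul ht hx (abs_nonneg _) (by norm_num)
      linarith
    have := mul_le_mul_of_nonneg_left (add_le_add h3 h4) hc0
    linarith
  have hMesh := cover_mesh c Δ t u _ _ _ _ _ _ hc0 hΔ ht hu hp0 hq0 hpc hqc ha0 hb0 hab h1 h2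
  have hMain := cover_main c m t u _ _ hc0 hm0 ht hu hp0 hq0 hpc hqc
  -- abbreviations
  set a : ℝ := τ - c * t * x with ha
  set b : ℝ := 1 - τ + c * u * y with hb
  set p : ℝ := c * (t ^ 2 + 1) / 2 with hp
  set q : ℝ := c * (u ^ 2 + 1) / 2 with hq
  set d1 : ℝ := y - p * x - t * a with hd1
  set d2 : ℝ := x + q * y - u * b with hd2
  set A : ℝ := c ^ 2 / 4 * (t ^ 2 + t ^ 4) + m with hAdef
  set B : ℝ := c ^ 2 / 4 * (u ^ 2 + u ^ 4) + m with hBdef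
  set Ca : ℝ := 1 + p * q - c * u * t - c * t ^ 2 * q with hCa
  set Cb : ℝ := 1 + p * q + c * u * t - c * u ^ 2 * p with hCb
  have hpq0 : 0 ≤ p * q := mul_nonneg hp0 hq0
  have hut : |u * t| ≤ 1 := by
    rw [abs_mul]
    have : |u| * |t| ≤ 1 * 1 := mul_le_mul hu ht (abs_nonneg _) (by norm_num)
    linarith
  obtain ⟨hut1, hut2⟩ := abs_le.mp hut
  have hκ : 0 < 1 - c - c ^ 2 := by
    have := mul_nonneg hc0 (by linarith : (0:ℝ) ≤ 1 / 2 - c)
    linarith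
  have hCa0 : 1 - c - c ^ 2 ≤ Ca := by
    rw [hCa]
    have e1 := mul_le_mul_of_nonneg_left hut2 hc0
    have e2 : t ^ 2 * q ≤ 1 * c := mul_le_mul ht2' hqc hq0 (by norm_num)
    have e3 := mul_le_mul_of_nonneg_left e2 hc0
    linarith
  have hCb0 : 1 - c - c ^ 2 ≤ Cb := by
    rw [hCb]
    have e1 := mul_le_mul_of_nonneg_left hut1 hc0
    have e2 : u ^ 2 * p ≤ 1 * c := mul_le_mul hu2' hpc hp0 (by norm_num)
    have e3 := mul_le_mul_of_nonneg_left e2 hc0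
    linarith
  have hCapos : 0 < Ca := lt_of_lt_of_le hκ hCa0
  have hCbpos : 0 < Cb := lt_of_lt_of_le hκ hCb0
  have hid2 : (a - 1 / 2) * Ca + (b - 1 / 2) * Cb =
      c ^ 2 / 4 * (t ^ 2 + u ^ 2 + 2 * t ^ 2 * u ^ 2)
        + (c * d1 * (u + t * q) + c * d2 * (u * p - t)) := by
    have e : (a - 1 / 2) * Ca + (b - 1 / 2) * Cb =
        (a + b - 1) * (1 + p * q) - (c * u * t * (a - b) + c * (u ^ 2 * p * b + t ^ 2 * q * a))
          + c / 2 * (u ^ 2 * p + t ^ 2 * q) := by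
      rw [hCa, hCb]; ring
    rw [e, hid, hp, hq]; ring
  have hα : A * Ca < (a - 1 / 2) * Ca :=
    mul_lt_mul_of_pos_right (by linarith) hCapos
  have hβ : B * Cb < (b - 1 / 2) * Cb :=
    mul_lt_mul_of_pos_right (by linarith) hCbpos
  linarith

end Crest.Agent.S0324.Ineq
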