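/-
Row 211, WP-E (helper94): the explicit cover in real coordinates `(x, y, τ)`, `τ = z/√2`.
Parameters: tilt `cc = 1/100`, mesh `dd = 1/100000`, `nn + 1 = 200001` tags, margin `mm = 3/10^7`.
-/
import Crest.Agent.S0324.CoverCore

set_option autoImplicit false

namespace Crest.Agent.S0324.Ineq

noncomputable section

/-- tilt parameter -/
def cc : ℝ := 1 / 100
/-- mesh of the tags -/
def dd : ℝ := 1 / 100000
/-- margin of the caps -/
def mm : ℝ := 3 / 10000000
/-- number of cells (`nn + 1` tags, hence `nn + 1` cylinders in each family) -/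
def nn : ℕ := 200000

/-- clipped tags: `T 0 = T 1 = -1`, `T k = -1 + (k-1) dd` for `1 ≤ k ≤ nn+1`,
`T (nn+1) = T (nn+2) = 1`.  Cylinder `i` (`0 ≤ i ≤ nn`) has tag `T (i+1)`. -/
def T (k : ℕ) : ℝ := max (-1) (min 1 (-1 + ((k : ℝ) - 1) * dd))

/-- the plane `y = F s₁ s₂ x τ` contains the axis directions of the tags `s₁` and `s₂`. -/
def F (s₁ s₂ x τ : ℝ) : ℝ := (s₁ + s₂) / 2 * τ - cc * (s₁ * s₂ - 1) / 2 * x

/-- cap height -/
def Rcap (t : ℝ) : ℝ := 1 / 2 + cc ^ 2 / 4 * (t ^ 2 + t ^ 4) + mm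

/-- the lower cylinder number `i`, in coordinates `(x, y, τ)`. -/
def InLowerT (i : ℕ) (x y τ : ℝ) : Prop :=
  F (T i) (T (i + 1)) x τ ≤ y ∧ y ≤ F (T (i + 1)) (T (i + 2)) x τ ∧
    τ - cc * T (i + 1) * x ≤ Rcap (T (i + 1))

theorem T_abs (k : ℕ) : |T k| ≤ 1 := by
  unfold T
  rw [abs_le]
  constructor
  · exact le_max_left _ _
  · exact max_le (by norm_num) (min_le_left _ _)

theorem T_mono (k : ℕ) : T k ≤ T (k + 1) := by
  unfold T dd
  push_cast
  exact max_le_max le_rfl (min_le_min le_rfl (by linarith))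

theorem T_step (k : ℕ) : T (k + 1) ≤ T k + dd := by
  unfold T dd
  push_cast
  simp only [max_def, min_def]
  split_ifs <;> linarith

theorem T_zero : T 0 = -1 := by
  unfold T dd
  norm_num

theorem T_one : T 1 = -1 := by
  unfold T dd
  norm_num

theorem T_eq (k : ℕ) (h1 : 1 ≤ k) (h2 : k ≤ nn + 1) : T k = -1 + ((k : ℝ) - 1) * dd := by
  have h1' : (1 : ℝ) ≤ (k : ℝ) := by exact_mod_cast h1
  have h2' : (k : ℝ) ≤ 200001 := by
    have : (k : ℝ) ≤ ((nn + 1 : ℕ) : ℝ) := by exact_mod_cast h2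
    simpa [nn] using this
  unfold T dd
  rw [min_eq_right (by linarith), max_eq_right (by linarith)]

theorem T_last : T (nn + 1) = 1 := by
  rw [T_eq _ (by omega) le_rfl]
  simp [nn, dd]
  norm_num

theorem T_last' : T (nn + 2) = 1 := by
  unfold T dd nn
  norm_num

theorem T_lt (i : ℕ) (hi : i ≤ nn) : T i < T (i + 2) := by
  have h0 : (0 : ℝ) ≤ (i : ℝ) := Nat.cast_nonneg i
  have h2' : (i : ℝ) ≤ 200000 := by
    have : (i : ℝ) ≤ ((nn : ℕ) : ℝ) := by exact_mod_cast hi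
    simpa [nn] using this
  unfold T dd
  push_cast
  simp only [max_def, min_def]
  split_ifs <;> linarith

/-- In the wedge between the planes of `(s₁, t)` and `(t, s₂)` the point is within angular
distance `dd/2` of the ray of tag `t`. -/
theorem wedge_abs (s₁ t s₂ x y τ : ℝ) (h1 : t - dd ≤ s₁)
    (h4 : s₂ ≤ t + dd) (h5 : s₁ < s₂) (hlo : F s₁ t x τ ≤ y) (hhi : y ≤ F t s₂ x τ) :
    |y - cc * (t ^ 2 + 1) / 2 * x - t * (τ - cc * t * x)| ≤ dd / 2 * (τ - cc * t * x) := by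
  have e1 : F s₁ t x τ - cc * (t ^ 2 + 1) / 2 * x = (s₁ + t) / 2 * (τ - cc * t * x) := by
    unfold F; ring
  have e2 : F t s₂ x τ - cc * (t ^ 2 + 1) / 2 * x = (t + s₂) / 2 * (τ - cc * t * x) := by
    unfold F; ring
  set a : ℝ := τ - cc * t * x with ha
  have ha0 : 0 ≤ a := by
    have : 0 ≤ (s₂ - s₁) * a := by linarith
    exact nonneg_of_mul_nonneg_right this (by linarith)
  have e3 : 0 ≤ (s₁ - t + dd) * a := mul_nonneg (by linarith) ha0
  have e4 : 0 ≤ (t + dd - s₂) * a := mul_nonneg (by linarith) ha0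
  rw [abs_le]
  constructor <;> linarith

/-- **The explicit cover, in coordinates.** Every point of the tetrahedron lies in a lower cylinder
or in an upper cylinder (= image of a lower cylinder under `(x, y, τ) ↦ (y, -x, 1 - τ)`). -/
theorem real_cover (x y τ : ℝ) (hy : |y| ≤ τ) (hx : |x| ≤ 1 - τ) :
    (∃ i, i ≤ nn ∧ InLowerT i x y τ) ∨ (∃ j, j ≤ nn ∧ InLowerT j (-y) x (1 - τ)) := by
  obtain ⟨hy1, hy2⟩ := abs_le.mp hy
  obtain ⟨hx1, hx2⟩ := abs_le.mp hx
  have h0 : F (T 0) (T 1) x τ ≤ y := by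
    rw [T_zero, T_one]; unfold F; linarith
  have hn : y ≤ F (T (nn + 1)) (T (nn + 2)) x τ := by
    rw [T_last, T_last']; unfold F; linarith
  have h0' : F (T 0) (T 1) (-y) (1 - τ) ≤ x := by
    rw [T_zero, T_one]; unfold F; linarith
  have hn' : x ≤ F (T (nn + 1)) (T (nn + 2)) (-y) (1 - τ) := by
    rw [T_last, T_last']; unfold F; linarith
  obtain ⟨i, hi, hi1, hi2⟩ := exists_index (fun k => F (T k) (T (k + 1)) x τ) y nn h0 hn
  obtain ⟨j, hj, hj1, hj2⟩ := exists_index (fun k => F (T k) (T (k + 1)) (-y) (1 - τ)) x nn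
    h0' hn'
  have hi1' : F (T i) (T (i + 1)) x τ ≤ y := hi1
  have hi2' : y ≤ F (T (i + 1)) (T (i + 2)) x τ := hi2
  have hj1' : F (T j) (T (j + 1)) (-y) (1 - τ) ≤ x := hj1
  have hj2' : x ≤ F (T (j + 1)) (T (j + 2)) (-y) (1 - τ) := hj2
  have w1 := wedge_abs (T i) (T (i + 1)) (T (i + 2)) x y τ
    (by have := T_step i; linarith)
    (by have := T_step (i + 1); linarith) (T_lt i hi) hi1' hi2'
  have w2 := wedge_abs (T j) (T (j + 1)) (T (j + 2)) (-y) x (1 - τ)
    (by have := T_step j; linarith)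
    (by have := T_step (j + 1); linarith) (T_lt j hj) hj1' hj2'
  have e1 : x - cc * (T (j + 1) ^ 2 + 1) / 2 * -y - T (j + 1) * (1 - τ - cc * T (j + 1) * -y)
      = x + cc * (T (j + 1) ^ 2 + 1) / 2 * y - T (j + 1) * (1 - τ + cc * T (j + 1) * y) := by
    ring
  have e2 : 1 - τ - cc * T (j + 1) * -y = 1 - τ + cc * T (j + 1) * y := by ring
  rw [e1, e2] at w2
  have hcore := cover_core cc dd mm (T (i + 1)) (T (j + 1)) x y τ
    (by norm_num [cc]) (by norm_num [cc]) (by norm_num [dd]) (by norm_num [mm])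
    (by norm_num [cc, dd, mm]) (T_abs _) (T_abs _) hy hx w1 w2
  rcases hcore with h | h
  · left
    refine ⟨i, hi, ?_⟩
    unfold InLowerT Rcap
    exact ⟨hi1', hi2', h⟩
  · right
    refine ⟨j, hj, ?_⟩
    unfold InLowerT Rcap
    refine ⟨hj1', hj2', ?_⟩
    rw [e2]
    exact h

end

end Crest.Agent.S0324.Ineq
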