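/-
Row 211, WP-E, job E1 (helper94): the cover inequality `core_cover` in the shape fixed by
`CoverDefs` (helper60).  The mathematics is in `CoverCore` (key inequality `Ineq.cover_core`) and
`CoverReal` (`Ineq.real_cover`, with clipped tags `Ineq.T`); this file only translates notation.
-/
import Crest.Agent.S0324.CoverDefs
import Crest.Agent.S0324.CoverReal

set_option autoImplicit false

namespace Crest.Agent.S0324

open Ineq

lemma ineq_T_succ (i : ℕ) (hi : i < nC + 1) : T (i + 1) = tagC i := by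
  have h2 : i + 1 ≤ nn + 1 := by
    have : i < 200000 + 1 := hi
    show i + 1 ≤ 200000 + 1
    omega
  rw [T_eq (i + 1) (by omega) h2]
  unfold tagC dd
  push_cast
  ring

lemma ineq_thatL (i : ℕ) (hi : i < nC + 1) : thatL i = (T i + T (i + 1)) / 2 := by
  by_cases h0 : i = 0
  · subst h0
    rw [thatL, if_pos rfl, T_zero, T_one]
    norm_num
  · obtain ⟨k, rfl⟩ := Nat.exists_eq_succ_of_ne_zero h0
    have hk : k < nC + 1 := by omega
    rw [thatL, if_neg h0, ineq_T_succ k hk, ineq_T_succ (k + 1) hi]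
    simp

lemma ineq_thatR (i : ℕ) (hi : i < nC + 1) : thatR i = (T (i + 1) + T (i + 2)) / 2 := by
  by_cases hn : i = nC
  · subst hn
    have e1 : T (nC + 1) = 1 := T_last
    have e2 : T (nC + 2) = 1 := T_last'
    rw [thatR, if_pos rfl, e1, e2]
    norm_num
  · have hi' : i + 1 < nC + 1 := by omega
    rw [thatR, if_neg hn, ineq_T_succ i hi, ineq_T_succ (i + 1) hi']

lemma ineq_inLower (i : ℕ) (hi : i < nC + 1) (x y τ : ℝ) (h : InLowerT i x y τ) :
    inLower (thatL i) (thatR i) (capR i) (wyC i) (wtC i) x y τ := by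
  obtain ⟨h1, h2, h3⟩ := h
  have hT := ineq_T_succ i hi
  have e1 : thatL i * (τ - wtC i * x) = F (T i) (T (i + 1)) x τ - wyC i * x := by
    rw [ineq_thatL i hi]
    unfold F wyC wtC cC cc
    rw [← hT]
    ring
  have e2 : thatR i * (τ - wtC i * x) = F (T (i + 1)) (T (i + 2)) x τ - wyC i * x := by
    rw [ineq_thatR i hi]
    unfold F wyC wtC cC cc
    rw [← hT]
    ring
  have e3 : τ - wtC i * x = τ - cc * T (i + 1) * x := by
    unfold wtC cC cc
    rw [← hT]
  have e4 : capR i = Rcap (T (i + 1)) := by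
    unfold capR Rcap cC cc mC mm
    rw [← hT]
    norm_num
    ring
  refine ⟨?_, ?_, ?_⟩
  · rw [e1]; linarith
  · rw [e2]; linarith
  · rw [e3, e4]; exact h3

/-- **Job E1.** Every point of the tetrahedron (in coordinates `(x, y, τ)`, `τ = z/√2`) lies in a
lower cylinder or in an upper cylinder. -/
theorem core_cover (x y τ : ℝ) (hy : |y| ≤ τ) (hx : |x| ≤ 1 - τ) :
    (∃ i, i < nC + 1 ∧ inLower (thatL i) (thatR i) (capR i) (wyC i) (wtC i) x y τ) ∨
    (∃ j, j < nC + 1 ∧ inLower (thatL j) (thatR j) (capR j) (wyC j) (wtC j) (-y) x (1 - τ)) := by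
  rcases real_cover x y τ hy hx with ⟨i, hi, h⟩ | ⟨j, hj, h⟩
  · have hi' : i < nC + 1 := Nat.lt_succ_of_le hi
    exact Or.inl ⟨i, hi', ineq_inLower i hi' x y τ h⟩
  · have hj' : j < nC + 1 := Nat.lt_succ_of_le hj
    exact Or.inr ⟨j, hj', ineq_inLower j hj' (-y) x (1 - τ) h⟩

end Crest.Agent.S0324
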