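/-
Row 211, WP-E, job E3 (insurance copy by helper94): the area sum of the explicit cover,
`core_sum_h94` = the statement `core_sum` of the row-211 plan.

Method: per cylinder, `capR² / √(1+q) ≤ G (tag)` with the polynomial
`G t = 1/4 + cC² (7 t⁴ - 2 t² - 1)/32 + slop` (using `(1 - q/2 + 3q²/8) √(1+q) ≥ 1`), and then
telescoping with the antiderivative `H` of `G`:
`(thatR i - thatL i) * G (tag i) ≤ H (thatR i) - H (thatL i) + kap`.
-/
import Crest.Agent.S0324.CoverIneq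

set_option autoImplicit false

namespace Crest.Agent.S0324

namespace SumH94

open Ineq

/-- slack absorbing the margin and the higher order terms -/
noncomputable def slop : ℝ := 4 / 10 ^ 7

/-- quadrature error allowed per cell -/
noncomputable def kap : ℝ := 1 / 10 ^ 15

/-- polynomial majorant of `capR² / √(1 + q)` -/
noncomputable def G (t : ℝ) : ℝ := 1 / 4 + cC ^ 2 * (7 * t ^ 4 - 2 * t ^ 2 - 1) / 32 + slop

/-- antiderivative of `G` -/
noncomputable def H (t : ℝ) : ℝ :=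
  (1 / 4 + slop - cC ^ 2 / 32) * t - cC ^ 2 / 48 * t ^ 3 + 7 * cC ^ 2 / 160 * t ^ 5

/-- cell boundaries: `S i = thatL i`, `S (i+1) = thatR i`. -/
noncomputable def S (k : ℕ) : ℝ := (T k + T (k + 1)) / 2

lemma phi_bound (s : ℝ) (hs0 : 0 ≤ s) (hs1 : s ≤ 1) :
    1 ≤ (1 - s / 2 + 3 * s ^ 2 / 8) * Real.sqrt (1 + s) := by
  have hφ : 0 < 1 - s / 2 + 3 * s ^ 2 / 8 := by nlinarith [sq_nonneg s]
  have h1 : (1 : ℝ) ≤ (1 - s / 2 + 3 * s ^ 2 / 8) ^ 2 * (1 + s) := by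
    have e : (1 - s / 2 + 3 * s ^ 2 / 8) ^ 2 * (1 + s) - 1
        = s ^ 3 * (5 / 8 - 15 * s / 64 + 9 * s ^ 2 / 64) := by ring
    have h2 : 0 ≤ s ^ 3 * (5 / 8 - 15 * s / 64 + 9 * s ^ 2 / 64) := by
      apply mul_nonneg (by positivity)
      nlinarith [sq_nonneg s]
    linarith
  have h3 : Real.sqrt ((1 - s / 2 + 3 * s ^ 2 / 8) ^ 2 * (1 + s))
      = (1 - s / 2 + 3 * s ^ 2 / 8) * Real.sqrt (1 + s) := by
    rw [Real.sqrt_mul (sq_nonneg _), Real.sqrt_sq hφ.le]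
  rw [← h3]
  calc (1 : ℝ) = Real.sqrt 1 := Real.sqrt_one.symm
    _ ≤ Real.sqrt ((1 - s / 2 + 3 * s ^ 2 / 8) ^ 2 * (1 + s)) := Real.sqrt_le_sqrt h1

lemma poly_bound (ρ s : ℝ) (hρ0 : 0 ≤ ρ) (hρ1 : ρ ≤ 1 / 10000) (hs0 : 0 ≤ s)
    (hs1 : s ≤ 3 / 10000) :
    (1 / 2 + ρ) ^ 2 * (1 - s / 2 + 3 * s ^ 2 / 8) ≤ 1 / 4 + ρ - s / 8 + 1 / 10 ^ 7 := by
  have e : (1 / 2 + ρ) ^ 2 * (1 - s / 2 + 3 * s ^ 2 / 8)
      = 1 / 4 + ρ - s / 8 + (ρ ^ 2 - (ρ + ρ ^ 2) * s / 2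
          + (1 / 4 + ρ + ρ ^ 2) * (3 / 8) * s ^ 2) := by ring
  have h1 : ρ ^ 2 ≤ 1 / 10 ^ 8 := by nlinarith
  have h2 : 0 ≤ (ρ + ρ ^ 2) * s / 2 := by positivity
  have h3 : s ^ 2 ≤ 9 / 10 ^ 8 := by nlinarith
  have h4 : (1 / 4 + ρ + ρ ^ 2) * (3 / 8) ≤ 1 / 8 := by nlinarith
  have h5 : (1 / 4 + ρ + ρ ^ 2) * (3 / 8) * s ^ 2 ≤ 1 / 8 * (9 / 10 ^ 8) := by
    apply mul_le_mul h4 h3 (sq_nonneg s) (by norm_num)
  rw [e]
  norm_num at h1 h3 h5 ⊢
  linarith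

lemma term_le (t w : ℝ) (ht : |t| ≤ 1) (hw : 0 ≤ w) :
    (1 / 2 + cC ^ 2 * (t ^ 2 + t ^ 4) / 4 + mC) ^ 2 * w
        / (2 * Real.sqrt (1 + (cC * (t ^ 2 + 1) / 2) ^ 2 + 2 * (cC * t) ^ 2))
      ≤ w / 2 * G t := by
  have ht2 : t ^ 2 ≤ 1 := (sq_le_one_iff_abs_le_one t).mpr ht
  have ht0 : 0 ≤ t ^ 2 := sq_nonneg t
  have ht4 : t ^ 4 ≤ 1 := by
    calc t ^ 4 = t ^ 2 * t ^ 2 := by ring
      _ ≤ 1 * 1 := mul_le_mul ht2 ht2 ht0 (by norm_num)
      _ = 1 := by norm_num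
  have ht40 : 0 ≤ t ^ 4 := by positivity
  set ρ : ℝ := cC ^ 2 * (t ^ 2 + t ^ 4) / 4 + mC with hρ
  set s : ℝ := cC ^ 2 * ((t ^ 2 + 1) ^ 2 / 4 + 2 * t ^ 2) with hs
  have hν : 1 + (cC * (t ^ 2 + 1) / 2) ^ 2 + 2 * (cC * t) ^ 2 = 1 + s := by
    rw [hs]; ring
  have hρ0 : 0 ≤ ρ := by rw [hρ]; unfold cC mC; positivity
  have hρ1 : ρ ≤ 1 / 10000 := by
    rw [hρ]; unfold cC mC; norm_num; linarith
  have hs0 : 0 ≤ s := by rw [hs]; unfold cC; positivity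
  have hs1 : s ≤ 3 / 10000 := by
    rw [hs]; unfold cC
    have : (t ^ 2 + 1) ^ 2 ≤ 4 := by nlinarith
    norm_num; linarith
  have hφ := phi_bound s hs0 (by linarith)
  have hP := poly_bound ρ s hρ0 hρ1 hs0 hs1
  have hG : 1 / 4 + ρ - s / 8 + 1 / 10 ^ 7 = G t := by
    rw [hρ, hs]; unfold G slop mC cC; ring
  rw [hG] at hP
  rw [hν, show (1 : ℝ) / 2 + cC ^ 2 * (t ^ 2 + t ^ 4) / 4 + mC = 1 / 2 + ρ by rw [hρ]; ring]
  have hsq : 0 < Real.sqrt (1 + s) := Real.sqrt_pos.mpr (by linarith)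
  rw [div_le_iff₀ (by positivity)]
  have h3 : (1 / 2 + ρ) ^ 2 * 1 ≤ (1 / 2 + ρ) ^ 2 * ((1 - s / 2 + 3 * s ^ 2 / 8) * Real.sqrt (1 + s)) :=
    mul_le_mul_of_nonneg_left hφ (sq_nonneg _)
  have h4 : (1 / 2 + ρ) ^ 2 * (1 - s / 2 + 3 * s ^ 2 / 8) * Real.sqrt (1 + s)
      ≤ G t * Real.sqrt (1 + s) := mul_le_mul_of_nonneg_right hP hsq.le
  have h5 : (1 / 2 + ρ) ^ 2 ≤ G t * Real.sqrt (1 + s) := by linarith
  have h6 := mul_le_mul_of_nonneg_left h5 hw
  linarith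

lemma cell_mid (t : ℝ) : dd * G t ≤ H (t + dd / 2) - H (t - dd / 2) + kap := by
  have e : H (t + dd / 2) - H (t - dd / 2) - dd * G t
      = cC ^ 2 * dd ^ 3 * (7 / 64 * t ^ 2 - 1 / 192) + 7 * cC ^ 2 / 2560 * dd ^ 5 := by
    unfold H G; ring
  have h1 : 0 ≤ cC ^ 2 * dd ^ 3 * (7 / 64 * t ^ 2) := by unfold cC dd; positivity
  have h2 : 0 ≤ 7 * cC ^ 2 / 2560 * dd ^ 5 := by unfold cC dd; positivity
  have h3 : cC ^ 2 * dd ^ 3 * (1 / 192) ≤ kap := by unfold cC dd kap; norm_num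
  linarith

lemma cell_left : dd / 2 * G (-1) ≤ H (-1 + dd / 2) - H (-1) + kap := by
  unfold H G cC dd kap slop
  norm_num

lemma cell_right : dd / 2 * G 1 ≤ H 1 - H (1 - dd / 2) + kap := by
  unfold H G cC dd kap slop
  norm_num

lemma S_zero : S 0 = -1 := by
  unfold S; rw [T_zero, T_one]; norm_num

lemma S_last : S (nC + 1) = 1 := by
  have e1 : T (nC + 1) = 1 := T_last
  have e2 : T (nC + 1 + 1) = 1 := T_last'
  unfold S; rw [e1, e2]; norm_num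

lemma cell (i : ℕ) (hi : i < nC + 1) :
    (thatR i - thatL i) * G (tagC i) ≤ H (S (i + 1)) - H (S i) + kap := by
  have hT1 := ineq_T_succ i hi
  have hL : thatL i = S i := ineq_thatL i hi
  have hR : thatR i = S (i + 1) := ineq_thatR i hi
  rw [hL, hR]
  by_cases h0 : i = 0
  · subst h0
    have e2 : T 2 = -1 + dd := by
      have := ineq_T_succ 1 (by norm_num [nC])
      rw [this, tagC]; unfold dd; norm_num
    have e1 : S 1 = -1 + dd / 2 := by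
      unfold S; rw [T_one, e2]; ring
    rw [S_zero, e1, tagC_zero]
    have := cell_left
    linarith
  · by_cases hn : i = nC
    · subst hn
      have e0 : T nC = 1 - dd := by
        have := ineq_T_succ (nC - 1) (by norm_num [nC])
        have e : nC - 1 + 1 = nC := by norm_num [nC]
        rw [e] at this
        rw [this, tagC]; unfold dd nC; norm_num
      have e1 : S nC = 1 - dd / 2 := by
        have e3 : T (nC + 1) = 1 := T_last
        unfold S; rw [e0, e3]; ring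
      rw [S_last, e1, tagC_nC]
      have := cell_right
      linarith
    · obtain ⟨k, rfl⟩ := Nat.exists_eq_succ_of_ne_zero h0
      have hk : k < nC + 1 := by omega
      have hk2 : k + 1 + 1 < nC + 1 := by omega
      have eA : T (k + 1) = tagC k := ineq_T_succ k hk
      have eB : T (k + 1 + 1) = tagC (k + 1) := ineq_T_succ (k + 1) hi
      have eC : T (k + 1 + 1 + 1) = tagC (k + 1 + 1) := ineq_T_succ (k + 1 + 1) hk2
      have s1 := tagC_succ k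
      have s2 := tagC_succ (k + 1)
      have e1 : S (k + 1) = tagC (k + 1) - dd / 2 := by
        unfold S; rw [eA, eB, s1]; unfold dd; ring
      have e2 : S (k + 1 + 1) = tagC (k + 1) + dd / 2 := by
        unfold S; rw [eB, eC, s2]; unfold dd; ring
      rw [e1, e2]
      have := cell_mid (tagC (k + 1))
      linarith

/-- **Job E3** (statement `core_sum` of the row-211 plan). -/
theorem core_sum_h94 :
    ∑ i ∈ Finset.range (nC + 1), capR i ^ 2 * (thatR i - thatL i)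
        / (2 * Real.sqrt (1 + wyC i ^ 2 + 2 * wtC i ^ 2)) ≤ (1 / 2 - 1 / 100000000) / 2 := by
  have hterm : ∀ i ∈ Finset.range (nC + 1), capR i ^ 2 * (thatR i - thatL i)
        / (2 * Real.sqrt (1 + wyC i ^ 2 + 2 * wtC i ^ 2))
      ≤ 1 / 2 * ((H (S (i + 1)) - H (S i)) + kap) := by
    intro i hi
    have hi' : i < nC + 1 := Finset.mem_range.mp hi
    have hmem := tagC_mem i hi'
    have hw : 0 ≤ thatR i - thatL i := by
      have := thatL_lt_thatR i hi'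
      linarith
    have h1 := term_le (tagC i) (thatR i - thatL i) (abs_le.mpr hmem) hw
    have h2 := cell i hi'
    have e : capR i ^ 2 * (thatR i - thatL i) / (2 * Real.sqrt (1 + wyC i ^ 2 + 2 * wtC i ^ 2))
        = (1 / 2 + cC ^ 2 * (tagC i ^ 2 + tagC i ^ 4) / 4 + mC) ^ 2 * (thatR i - thatL i)
          / (2 * Real.sqrt (1 + (cC * (tagC i ^ 2 + 1) / 2) ^ 2 + 2 * (cC * tagC i) ^ 2)) := by
      unfold capR wyC wtC; rfl
    rw [e]
    linarith
  calc ∑ i ∈ Finset.range (nC + 1), capR i ^ 2 * (thatR i - thatL i)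
        / (2 * Real.sqrt (1 + wyC i ^ 2 + 2 * wtC i ^ 2))
      ≤ ∑ i ∈ Finset.range (nC + 1), 1 / 2 * ((H (S (i + 1)) - H (S i)) + kap) :=
        Finset.sum_le_sum hterm
    _ = 1 / 2 * ((H (S (nC + 1)) - H (S 0)) + (nC + 1 : ℕ) * kap) := by
        rw [← Finset.mul_sum, Finset.sum_add_distrib, Finset.sum_range_sub (fun k => H (S k)),
          Finset.sum_const, Finset.card_range, nsmul_eq_mul]
    _ ≤ (1 / 2 - 1 / 100000000) / 2 := by
        rw [S_last, S_zero]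
        unfold H slop cC kap nC
        norm_num

end SumH94

end Crest.Agent.S0324
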