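/-
Row 211, WP-E, job E3: the area sum `core_sum` consumed by `Cover.lean`.
Proof in `CoverSumH94.lean` (helper94); this file only re-exports it under the interface name.
-/
import Crest.Agent.S0324.CoverSumH94

set_option autoImplicit false

namespace Crest.Agent.S0324

theorem core_sum :
    ∑ i ∈ Finset.range (nC + 1), capR i ^ 2 * (thatR i - thatL i)
        / (2 * Real.sqrt (1 + wyC i ^ 2 + 2 * wtC i ^ 2)) ≤ (1 / 2 - 1 / 100000000) / 2 :=
  SumH94.core_sum_h94

end Crest.Agent.S0324
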