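import Crest.Agent.S0324.CoverGeom
import Crest.Agent.S0324.CoverIneq
import Crest.Agent.S0324.CoverSum

/-!
Row 211, WP-E: the explicit cover of the standard regular tetrahedron by `400002` triangular
cylinders with total base area at most `√2 * (1/2 - 10⁻⁸)`.
-/

set_option autoImplicit false
open MeasureTheory
open scoped ENNReal

namespace Crest.Agent.S0324

theorem exists_cover : ∃ (m : ℕ) (u p q r : Fin m → EuclideanSpace ℝ (Fin 3)),
    m + 1 ≤ 16000000 ∧ (∀ i, ‖u i‖ = 1) ∧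
    (∀ i, inner ℝ (p i) (u i) = 0 ∧ inner ℝ (q i) (u i) = 0 ∧ inner ℝ (r i) (u i) = 0) ∧
    convexHull ℝ {!₂[1, 0, 0], !₂[-1, 0, 0], !₂[0, 1, Real.sqrt 2], !₂[0, -1, Real.sqrt 2]} ⊆
      ⋃ i, {x : EuclideanSpace ℝ (Fin 3) | ∃ b ∈ convexHull ℝ {p i, q i, r i}, ∃ t : ℝ,
        x = b + t • u i} ∧
    ∑ i, (μHE[2] (convexHull ℝ ({p i, q i, r i} : Set (EuclideanSpace ℝ (Fin 3))))).toReal ≤
      Real.sqrt 2 * (1 / 2 - 1 / 100000000) := by
  obtain ⟨u, p, q, r, h1, h2, h3, h4⟩ := cover_of_core (nC + 1) thatL thatR capR wyC wtC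
    (1 / 2 - 1 / 100000000) (fun i hi => thatL_lt_thatR i hi) (fun i _ => capR_pos i)
    core_cover core_sum
  exact ⟨2 * (nC + 1), u, p, q, r, by norm_num [nC], h1, h2, h3, h4⟩

end Crest.Agent.S0324
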