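import Mathlib

/-!
Toolkit for row 211 (S0324 .. S0329): areas (`μHE[2]`) of planar pieces of `EuclideanSpace ℝ (Fin 3)`.
-/

set_option autoImplicit false
open MeasureTheory
open scoped ENNReal

namespace Crest.Agent.S0324

/-- Euclidean 3-space. -/
abbrev E3 : Type := EuclideanSpace ℝ (Fin 3)

/-- Area of the parallelogram spanned by `a`, `b` (square root of the Gram determinant). -/
noncomputable def gramArea (a b : E3) : ℝ :=
  Real.sqrt (‖a‖ ^ 2 * ‖b‖ ^ 2 - inner ℝ a b ^ 2)

lemma gramArea_nonneg (a b : E3) : 0 ≤ gramArea a b := Real.sqrt_nonneg _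

/-- The linear map from the model plane attached to a pair of vectors. -/
noncomputable def planeMap (f₁ f₂ : E3) : EuclideanSpace ℝ (Fin 2) →ₗ[ℝ] E3 where
  toFun x := x 0 • f₁ + x 1 • f₂
  map_add' x y := by simp [add_smul]; abel
  map_smul' r x := by simp [mul_smul, smul_add]

lemma planeMap_apply (f₁ f₂ : E3) (x : EuclideanSpace ℝ (Fin 2)) :
    planeMap f₁ f₂ x = x 0 • f₁ + x 1 • f₂ := rfl

lemma planeMap_isometry (f₁ f₂ : E3) (h1 : ‖f₁‖ = 1) (h2 : ‖f₂‖ = 1) (h12 : inner ℝ f₁ f₂ = 0) :
    Isometry (planeMap f₁ f₂) := by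
  apply AddMonoidHomClass.isometry_of_norm
  intro x
  have hsq : ‖planeMap f₁ f₂ x‖ ^ 2 = ‖x‖ ^ 2 := by
    rw [planeMap_apply, norm_add_sq_real, norm_smul, norm_smul, inner_smul_left, inner_smul_right,
      h1, h2, h12, EuclideanSpace.norm_eq, Real.sq_sqrt (by positivity)]
    simp [Fin.sum_univ_two]
  exact (sq_eq_sq₀ (norm_nonneg _) (norm_nonneg _)).mp hsq

/-- `μHE[2]` of an isometric image of a subset of the model plane, translated. -/
lemma area_planeMap_image (c f₁ f₂ : E3) (h1 : ‖f₁‖ = 1) (h2 : ‖f₂‖ = 1)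
    (h12 : inner ℝ f₁ f₂ = 0) (T : Set (EuclideanSpace ℝ (Fin 2))) :
    μHE[2] ((fun x => c + planeMap f₁ f₂ x) '' T) = volume T := by
  have hiso : Isometry (fun x => c + planeMap f₁ f₂ x) :=
    (isometry_add_left c).comp (planeMap_isometry f₁ f₂ h1 h2 h12)
  rw [hiso.euclideanHausdorffMeasure_image, EuclideanSpace.euclideanHausdorffMeasure_eq_volume]

/-- The upper triangular matrix of the Gram–Schmidt change of coordinates. -/
noncomputable def gsMatrix (α β γ : ℝ) : Matrix (Fin 2) (Fin 2) ℝ := !![α, β; 0, γ]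

lemma volume_image_toLin' (M : Matrix (Fin 2) (Fin 2) ℝ) (S : Set (Fin 2 → ℝ)) :
    volume ((Matrix.toLin' M) '' S) = ENNReal.ofReal |M.det| * volume S := by
  rw [Measure.addHaar_image_linearMap, LinearMap.det_toLin']

lemma volume_image_toLp (S : Set (Fin 2 → ℝ)) :
    volume ((WithLp.toLp 2 : (Fin 2 → ℝ) → EuclideanSpace ℝ (Fin 2)) '' S) = volume S := by
  have h := (EuclideanSpace.volume_preserving_symm_measurableEquiv_toLp (Fin 2)).measure_preimage_equiv S
  rw [← h]
  congr 1
  ext x
  constructor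
  · rintro ⟨y, hy, rfl⟩
    simpa using hy
  · intro hx
    exact ⟨WithLp.ofLp x, by simpa using hx, by simp⟩

lemma volume_image_finTwo (S : Set (ℝ × ℝ)) :
    volume ((fun st : ℝ × ℝ => (![st.1, st.2] : Fin 2 → ℝ)) '' S) = volume S := by
  have h := (volume_preserving_finTwoArrow ℝ).measure_preimage_equiv S
  rw [← h]
  congr 1
  ext x
  constructor
  · rintro ⟨y, hy, rfl⟩
    simpa [MeasurableEquiv.finTwoArrow] using hy
  · intro hx
    refine ⟨(x 0, x 1), by simpa [MeasurableEquiv.finTwoArrow] using hx, ?_⟩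
    ext i; fin_cases i <;> simp


/-- **Area formula**: the `μHE[2]`-measure of the image of a planar set under the affine
parametrisation `(s, t) ↦ c + s • a + t • b` with `a`, `b` linearly independent. -/
theorem area_image (c a b : E3) (hab : 0 < gramArea a b) (S : Set (ℝ × ℝ)) :
    μHE[2] ((fun st : ℝ × ℝ => c + st.1 • a + st.2 • b) '' S) =
      ENNReal.ofReal (gramArea a b) * volume S := by
  have hG : 0 < ‖a‖ ^ 2 * ‖b‖ ^ 2 - inner ℝ a b ^ 2 := Real.sqrt_pos.mp hab
  have ha : a ≠ 0 := by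
    rintro rfl
    simp at hG
  have hα : 0 < ‖a‖ := norm_pos_iff.mpr ha
  set α : ℝ := ‖a‖ with hαdef
  set β : ℝ := inner ℝ a b / α with hβdef
  set γ : ℝ := gramArea a b / α with hγdef
  have hγ : 0 < γ := div_pos hab hα
  set f₁ : E3 := (1 / α) • a with hf₁
  set b' : E3 := b - β • f₁ with hb'
  set f₂ : E3 := (1 / γ) • b' with hf₂
  have h1 : ‖f₁‖ = 1 := by
    rw [hf₁, norm_smul, Real.norm_of_nonneg (by positivity)]
    field_simp
    rfl
  have hbf : inner ℝ b f₁ = β := by
    rw [hf₁, inner_smul_right, real_inner_comm, hβdef]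
    field_simp
  have hb'sq : ‖b'‖ ^ 2 = γ ^ 2 := by
    rw [hb', norm_sub_sq_real, inner_smul_right, hbf, norm_smul, h1, hγdef, div_pow, gramArea,
      Real.sq_sqrt hG.le, Real.norm_eq_abs, mul_one, sq_abs, hβdef]
    field_simp
    ring
  have hb'n : ‖b'‖ = γ := by
    have := (sq_eq_sq₀ (norm_nonneg b') hγ.le).mp hb'sq
    exact this
  have h2 : ‖f₂‖ = 1 := by
    rw [hf₂, norm_smul, Real.norm_of_nonneg (by positivity), hb'n]
    field_simp
  have h12 : inner ℝ f₁ f₂ = 0 := by
    rw [hf₂, inner_smul_right, hb', inner_sub_right, inner_smul_right, real_inner_comm, hbf,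
      real_inner_self_eq_norm_sq, h1]
    ring
  have hid : ∀ s t : ℝ, s • a + t • b = (α * s + β * t) • f₁ + (γ * t) • f₂ := by
    intro s t
    have haf : a = α • f₁ := by
      rw [hf₁, smul_smul]
      field_simp
      simp
    have hbf2 : b = β • f₁ + γ • f₂ := by
      have hγf : γ • f₂ = b' := by
        rw [hf₂, smul_smul, mul_one_div_cancel hγ.ne', one_smul]
      rw [hγf, hb']
      abel
    calc s • a + t • b = s • (α • f₁) + t • (β • f₁ + γ • f₂) := by rw [← haf, ← hbf2]
      _ = (α * s + β * t) • f₁ + (γ * t) • f₂ := by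
        simp only [smul_add, smul_smul, add_smul]
        rw [mul_comm s α, mul_comm t β, mul_comm t γ]
        abel
  have himg : (fun st : ℝ × ℝ => c + st.1 • a + st.2 • b) '' S =
      (fun x => c + planeMap f₁ f₂ x) ''
        ((WithLp.toLp 2 : (Fin 2 → ℝ) → EuclideanSpace ℝ (Fin 2)) ''
          ((Matrix.toLin' (gsMatrix α β γ)) ''
            ((fun st : ℝ × ℝ => (![st.1, st.2] : Fin 2 → ℝ)) '' S))) := by
    simp only [Set.image_image]
    apply Set.image_congr
    intro st _
    rw [add_assoc, hid, planeMap_apply]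
    simp [gsMatrix, Matrix.mulVec, dotProduct, Fin.sum_univ_two]
  rw [himg, area_planeMap_image c f₁ f₂ h1 h2 h12, volume_image_toLp, volume_image_toLin',
    volume_image_finTwo]
  congr 2
  simp only [gsMatrix, Matrix.det_fin_two_of]
  rw [mul_zero, sub_zero, hγdef, mul_div_cancel₀ _ hα.ne', abs_of_pos hab]


/-- The standard triangle in the parameter plane. -/
def stdTriangle : Set (ℝ × ℝ) := {st : ℝ × ℝ | 0 ≤ st.1 ∧ 0 ≤ st.2 ∧ st.1 + st.2 ≤ 1}

lemma measurableSet_stdTriangle : MeasurableSet stdTriangle := by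
  have h1 : IsClosed {st : ℝ × ℝ | 0 ≤ st.1} := isClosed_le continuous_const continuous_fst
  have h2 : IsClosed {st : ℝ × ℝ | 0 ≤ st.2} := isClosed_le continuous_const continuous_snd
  have h3 : IsClosed {st : ℝ × ℝ | st.1 + st.2 ≤ 1} :=
    isClosed_le (continuous_fst.add continuous_snd) continuous_const
  have : stdTriangle = ({st : ℝ × ℝ | 0 ≤ st.1} ∩ {st : ℝ × ℝ | 0 ≤ st.2}) ∩
      {st : ℝ × ℝ | st.1 + st.2 ≤ 1} := by
    ext st; simp [stdTriangle, and_assoc]
  rw [this]
  exact ((h1.inter h2).inter h3).measurableSet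

lemma convex_stdTriangle : Convex ℝ stdTriangle := by
  intro x hx y hy a b ha hb hab
  obtain ⟨hx1, hx2, hx3⟩ := hx
  obtain ⟨hy1, hy2, hy3⟩ := hy
  refine ⟨?_, ?_, ?_⟩
  · simp only [Prod.fst_add, Prod.smul_fst, smul_eq_mul]; positivity
  · simp only [Prod.snd_add, Prod.smul_snd, smul_eq_mul]; positivity
  · simp only [Prod.fst_add, Prod.smul_fst, smul_eq_mul, Prod.snd_add, Prod.smul_snd]
    nlinarith

lemma volume_stdTriangle : volume stdTriangle = ENNReal.ofReal (1 / 2) := by
  rw [Measure.volume_eq_prod, Measure.prod_apply measurableSet_stdTriangle]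
  have hslice : ∀ x : ℝ, volume (Prod.mk x ⁻¹' stdTriangle) =
      (Set.Icc (0:ℝ) 1).indicator (fun x => ENNReal.ofReal (1 - x)) x := by
    intro x
    by_cases hx : x ∈ Set.Icc (0:ℝ) 1
    · rw [Set.indicator_of_mem hx]
      have : Prod.mk x ⁻¹' stdTriangle = Set.Icc 0 (1 - x) := by
        ext y
        simp only [stdTriangle, Set.mem_preimage, Set.mem_ofPred_eq, Set.mem_Icc]
        constructor
        · rintro ⟨_, hy, hxy⟩; exact ⟨hy, by linarith⟩
        · rintro ⟨hy, hxy⟩; exact ⟨hx.1, hy, by linarith⟩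
      rw [this, Real.volume_Icc, sub_zero]
    · rw [Set.indicator_of_notMem hx]
      have : Prod.mk x ⁻¹' stdTriangle = ∅ := by
        ext y
        simp only [stdTriangle, Set.mem_preimage, Set.mem_ofPred_eq, Set.mem_empty_iff_false,
          iff_false, not_and, not_le]
        intro h0 hy
        by_contra hcon
        exact hx ⟨h0, by linarith⟩
      rw [this, measure_empty]
  simp_rw [hslice]
  rw [lintegral_indicator measurableSet_Icc]
  have hint : IntegrableOn (fun x : ℝ => 1 - x) (Set.Icc 0 1) volume :=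
    (continuous_const.sub continuous_id).continuousOn.integrableOn_Icc
  have hnn : 0 ≤ᵐ[volume.restrict (Set.Icc (0:ℝ) 1)] fun x : ℝ => 1 - x := by
    refine (ae_restrict_iff' measurableSet_Icc).mpr (Filter.Eventually.of_forall ?_)
    intro x hx
    simp only [Pi.zero_apply]
    linarith [hx.2]
  rw [← ofReal_integral_eq_lintegral_ofReal hint hnn]
  congr 1
  rw [integral_Icc_eq_integral_Ioc, ← intervalIntegral.integral_of_le (by norm_num : (0:ℝ) ≤ 1)]
  rw [intervalIntegral.integral_sub intervalIntegrable_const intervalIntegral.intervalIntegrable_id]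
  simp only [intervalIntegral.integral_const, integral_id]
  norm_num

lemma volume_unitSquare : volume (Set.Icc (0:ℝ) 1 ×ˢ Set.Icc (0:ℝ) 1) = 1 := by
  rw [Measure.volume_eq_prod, Measure.prod_prod]
  simp

/-- A parallelogram written as an image of the unit square. -/
lemma parallelogram_eq_image (c a b : E3) :
    {x : E3 | ∃ s ∈ Set.Icc (0:ℝ) 1, ∃ t ∈ Set.Icc (0:ℝ) 1, x = c + s • a + t • b} =
      (fun st : ℝ × ℝ => c + st.1 • a + st.2 • b) '' (Set.Icc (0:ℝ) 1 ×ˢ Set.Icc (0:ℝ) 1) := by
  ext x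
  constructor
  · rintro ⟨s, hs, t, ht, rfl⟩
    exact ⟨(s, t), ⟨hs, ht⟩, rfl⟩
  · rintro ⟨⟨s, t⟩, ⟨hs, ht⟩, rfl⟩
    exact ⟨s, hs, t, ht, rfl⟩

/-- Area of a nondegenerate parallelogram. -/
theorem area_parallelogram (c a b : E3) (hab : 0 < gramArea a b) :
    μHE[2] {x : E3 | ∃ s ∈ Set.Icc (0:ℝ) 1, ∃ t ∈ Set.Icc (0:ℝ) 1, x = c + s • a + t • b} =
      ENNReal.ofReal (gramArea a b) := by
  rw [parallelogram_eq_image, area_image c a b hab, volume_unitSquare, mul_one]

/-- A triangle written as an image of the standard triangle. -/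
lemma triangle_eq_image (p q r : E3) :
    convexHull ℝ {p, q, r} =
      (fun st : ℝ × ℝ => p + st.1 • (q - p) + st.2 • (r - p)) '' stdTriangle := by
  apply Set.Subset.antisymm
  · apply convexHull_min
    · intro x hx
      simp only [Set.mem_insert_iff, Set.mem_singleton_iff] at hx
      rcases hx with rfl | rfl | rfl
      · exact ⟨(0, 0), by simp [stdTriangle], by simp⟩
      · exact ⟨(1, 0), by simp [stdTriangle], by simp⟩
      · exact ⟨(0, 1), by simp [stdTriangle], by simp⟩
    · have hlin : IsLinearMap ℝ (fun st : ℝ × ℝ => st.1 • (q - p) + st.2 • (r - p)) := by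
        constructor
        · intro x y
          simp only [Prod.fst_add, Prod.snd_add, add_smul]
          abel
        · intro c x
          simp only [Prod.smul_fst, Prod.smul_snd, smul_eq_mul, mul_smul, smul_add]
      have h1 := (convex_stdTriangle.is_linear_image hlin).translate p
      convert h1 using 1
      ext x
      simp only [Set.mem_image, Set.image_add_left, Set.mem_preimage]
      constructor
      · rintro ⟨st, hst, rfl⟩
        exact ⟨st, hst, by abel⟩
      · rintro ⟨st, hst, h⟩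
        exact ⟨st, hst, by rw [add_assoc, h]; abel⟩
  · rintro x ⟨⟨s, t⟩, ⟨hs, ht, hst⟩, rfl⟩
    simp only at hs ht hst ⊢
    have hmem : ∀ i : Fin 3, (![p, q, r] : Fin 3 → E3) i ∈ convexHull ℝ {p, q, r} := by
      intro i
      apply subset_convexHull
      fin_cases i <;> simp
    have h := (convex_convexHull ℝ {p, q, r}).sum_mem (t := Finset.univ)
      (w := ![1 - s - t, s, t]) (z := ![p, q, r])
      (by intro i _; fin_cases i <;> simp <;> linarith)
      (by simp only [Fin.sum_univ_three, Matrix.cons_val_zero, Matrix.cons_val_one,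
            Matrix.cons_val_two, Matrix.head_cons, Matrix.tail_cons]; ring)
      (fun i _ => hmem i)
    convert h using 1
    simp only [Fin.sum_univ_three, Matrix.cons_val_zero, Matrix.cons_val_one, Matrix.cons_val_two,
      Matrix.head_cons, Matrix.tail_cons, smul_sub, sub_smul, one_smul]
    abel

/-- Area of a nondegenerate triangle. -/
theorem area_triangle (p q r : E3) (h : 0 < gramArea (q - p) (r - p)) :
    μHE[2] (convexHull ℝ {p, q, r}) = ENNReal.ofReal (gramArea (q - p) (r - p) / 2) := by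
  rw [triangle_eq_image, area_image p (q - p) (r - p) h, volume_stdTriangle,
    ← ENNReal.ofReal_mul (gramArea_nonneg _ _)]
  congr 1
  ring

/-- Lower bound for the area of an arbitrary (possibly degenerate) triangle. -/
theorem area_triangle_ge (p q r : E3) :
    ENNReal.ofReal (gramArea (q - p) (r - p) / 2) ≤ μHE[2] (convexHull ℝ {p, q, r}) := by
  rcases (gramArea_nonneg (q - p) (r - p)).eq_or_lt with h | h
  · rw [← h]; simp
  · exact (area_triangle p q r h).ge


/-- Area of an open (slightly enlarged) nondegenerate parallelogram. -/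
theorem area_open_parallelogram (c a b : E3) (hab : 0 < gramArea a b) (η : ℝ) (hη : 0 ≤ η) :
    μHE[2] ((fun st : ℝ × ℝ => c + st.1 • a + st.2 • b) ''
        (Set.Ioo (-η) (1 + η) ×ˢ Set.Ioo (-η) (1 + η))) =
      ENNReal.ofReal ((1 + 2 * η) ^ 2 * gramArea a b) := by
  rw [area_image c a b hab, Measure.volume_eq_prod, Measure.prod_prod, Real.volume_Ioo,
    ← ENNReal.ofReal_mul (by linarith), ← ENNReal.ofReal_mul (gramArea_nonneg _ _)]
  congr 1
  ring

/-- Coordinate (cross product) formula for the Gram determinant. -/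
lemma gram_eq_cross (a b : E3) :
    ‖a‖ ^ 2 * ‖b‖ ^ 2 - inner ℝ a b ^ 2 =
      (a 1 * b 2 - a 2 * b 1) ^ 2 + (a 2 * b 0 - a 0 * b 2) ^ 2 + (a 0 * b 1 - a 1 * b 0) ^ 2 := by
  rw [EuclideanSpace.norm_eq, EuclideanSpace.norm_eq, Real.sq_sqrt (by positivity),
    Real.sq_sqrt (by positivity)]
  simp only [Fin.sum_univ_three, Real.norm_eq_abs, sq_abs, PiLp.inner_apply, Fin.sum_univ_three,
    RCLike.inner_apply, conj_trivial]
  ring

lemma gramArea_eq_cross (a b : E3) :
    gramArea a b = Real.sqrt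
      ((a 1 * b 2 - a 2 * b 1) ^ 2 + (a 2 * b 0 - a 0 * b 2) ^ 2 + (a 0 * b 1 - a 1 * b 0) ^ 2) := by
  rw [gramArea, gram_eq_cross]

lemma gramArea_comm (a b : E3) : gramArea a b = gramArea b a := by
  rw [gramArea, gramArea, real_inner_comm, mul_comm]

lemma gramArea_smul_left (k : ℝ) (a b : E3) : gramArea (k • a) b = |k| * gramArea a b := by
  rw [gramArea, gramArea, norm_smul, inner_smul_left, Real.norm_eq_abs,
    ← Real.sqrt_sq (abs_nonneg k), ← Real.sqrt_mul (sq_nonneg _)]
  congr 1
  simp only [conj_trivial]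
  rw [Real.sqrt_sq (abs_nonneg k), mul_pow, mul_pow, sq_abs]
  ring

lemma gramArea_smul_right (k : ℝ) (a b : E3) : gramArea a (k • b) = |k| * gramArea a b := by
  rw [gramArea_comm, gramArea_smul_left, gramArea_comm]

/-- `μH[2]` and `μHE[2]` differ by a finite positive constant. -/
theorem exists_hausdorff_const :
    ∃ C : ℝ≥0∞, C ≠ 0 ∧ C ≠ ⊤ ∧ ∀ s : Set E3, μHE[2] s = C * μH[(2:ℝ)] s := by
  refine ⟨(Measure.addHaarScalarFactor (volume : Measure (EuclideanSpace ℝ (Fin 2))) μH[((2:ℕ):ℝ)] : NNReal),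
    ?_, ENNReal.coe_ne_top, ?_⟩
  · exact_mod_cast Measure.addHaarScalarFactor_volume_hausdorffMeasure_ne_zero 2
  · intro s
    rw [Measure.euclideanHausdorffMeasure_def, Measure.smul_apply]
    simp [ENNReal.smul_def]

lemma area_singleton (x : E3) : μHE[2] ({x} : Set E3) = 0 := by
  obtain ⟨C, -, -, hC⟩ := exists_hausdorff_const
  rw [hC]
  have : μH[(2:ℝ)] ({x} : Set E3) = 0 := by
    have : NullSingletonClass (μH[(2:ℝ)] : Measure E3) :=
      Measure.nullSingletonClass_hausdorff E3 (by norm_num)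
    exact measure_singleton x
  rw [this, mul_zero]


/-- A bounded subset of a plane through the origin has finite `μHE[2]`-measure. -/
theorem planar_lt_top (v : E3) (hv : v ≠ 0) (s : Set E3) (hb : Bornology.IsBounded s)
    (hs : ∀ x ∈ s, inner ℝ x v = 0) : μHE[2] s < ⊤ := by
  set W : Submodule ℝ E3 := (ℝ ∙ v)ᗮ with hW
  have : Fact (Module.finrank ℝ E3 = 2 + 1) := ⟨by simp⟩
  have hfin : Module.finrank ℝ W = 2 :=
    Submodule.finrank_orthogonal_span_singleton (𝕜 := ℝ) (E := E3) (n := 2) hv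
  set t : Set W := Subtype.val ⁻¹' s with ht
  have hst : s = Subtype.val '' t := by
    ext x
    constructor
    · intro hx
      have hxW : x ∈ W := by
        rw [hW, Submodule.mem_orthogonal_singleton_iff_inner_left]
        exact hs x hx
      exact ⟨⟨x, hxW⟩, hx, rfl⟩
    · rintro ⟨y, hy, rfl⟩
      exact hy
  have hiso : Isometry (Subtype.val : W → E3) := isometry_subtype_coe
  have htb : Bornology.IsBounded t := by
    rw [Metric.isBounded_iff] at hb ⊢
    obtain ⟨C, hC⟩ := hb
    exact ⟨C, fun x hx y hy => hC hx hy⟩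
  rw [hst, hiso.euclideanHausdorffMeasure_image]
  have hvol : (μHE[2] : Measure W) = volume := by
    have := InnerProductSpace.euclideanHausdorffMeasure_eq_volume (V := W)
    rwa [hfin] at this
  rw [hvol]
  exact htb.measure_lt_top


/-- Coordinate `3 × 3` determinant of three vectors of `E3`. -/
def det3 (a b u : E3) : ℝ :=
  (a 1 * b 2 - a 2 * b 1) * u 0 + (a 2 * b 0 - a 0 * b 2) * u 1 + (a 0 * b 1 - a 1 * b 0) * u 2

lemma inner_coord (a b : E3) : inner ℝ a b = a 0 * b 0 + a 1 * b 1 + a 2 * b 2 := by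
  simp only [PiLp.inner_apply, Fin.sum_univ_three, RCLike.inner_apply, conj_trivial]
  ring

lemma norm_sq_coord (a : E3) : ‖a‖ ^ 2 = a 0 ^ 2 + a 1 ^ 2 + a 2 ^ 2 := by
  rw [EuclideanSpace.norm_eq, Real.sq_sqrt (by positivity)]
  simp only [Fin.sum_univ_three, Real.norm_eq_abs, sq_abs]

/-- Orthogonal projection along a vector `u` (onto `u^⊥` when `u` is a unit vector), as a linear map. -/
noncomputable def projPerp (u : E3) : E3 →ₗ[ℝ] E3 where
  toFun x := x - inner ℝ x u • u
  map_add' x y := by rw [inner_add_left, add_smul]; abel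
  map_smul' r x := by
    simp only [RingHom.id_apply]
    rw [inner_smul_left, smul_sub, mul_smul]
    simp

lemma projPerp_apply (u x : E3) : projPerp u x = x - inner ℝ x u • u := rfl

lemma projPerp_coe (u : E3) : (projPerp u : E3 → E3) = fun x => x - inner ℝ x u • u := rfl

lemma inner_projPerp (u x : E3) (hu : ‖u‖ = 1) : inner ℝ (projPerp u x) u = 0 := by
  rw [projPerp_apply, inner_sub_left, inner_smul_left, real_inner_self_eq_norm_sq, hu]
  simp

/-- Image of a convex hull under the projection. -/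
lemma projPerp_image_convexHull (u : E3) (s : Set E3) :
    (fun x => x - inner ℝ x u • u) '' convexHull ℝ s =
      convexHull ℝ ((fun x => x - inner ℝ x u • u) '' s) := by
  rw [← projPerp_coe]
  exact (projPerp u).image_convexHull s

/-- **Projected area**: the parallelogram spanned by the projections of `a`, `b` onto `u^⊥`
(`u` a unit vector) has area `|det (a, b, u)|`. -/
theorem gramArea_proj (a b u : E3) (hu : ‖u‖ = 1) :
    gramArea (a - inner ℝ a u • u) (b - inner ℝ b u • u) = |det3 a b u| := by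
  have hu' : u 0 ^ 2 + u 1 ^ 2 + u 2 ^ 2 = 1 := by
    rw [← norm_sq_coord, hu]; norm_num
  rw [gramArea_eq_cross, ← Real.sqrt_sq_eq_abs]
  congr 1
  simp only [PiLp.sub_apply, PiLp.smul_apply, smul_eq_mul, inner_coord, det3]
  linear_combination
    (-((a 1 * b 2 - a 2 * b 1) * u 0 + (a 2 * b 0 - a 0 * b 2) * u 1 + (a 0 * b 1 - a 1 * b 0) * u 2) ^ 2
      + ((a 1 * b 2 - a 2 * b 1) ^ 2 + (a 2 * b 0 - a 0 * b 2) ^ 2 + (a 0 * b 1 - a 1 * b 0) ^ 2)
        * (u 0 ^ 2 + u 1 ^ 2 + u 2 ^ 2 - 1)) * hu'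


lemma proj_sub (P Q u : E3) :
    (Q - inner ℝ Q u • u) - (P - inner ℝ P u • u) = (Q - P) - inner ℝ (Q - P) u • u := by
  rw [inner_sub_left, sub_smul]; abel

/-- Area of a triangle projected onto `u^⊥` (lower bound, always valid). -/
theorem area_proj_triangle_ge (P Q R u : E3) (hu : ‖u‖ = 1) :
    ENNReal.ofReal (|det3 (Q - P) (R - P) u| / 2) ≤
      μHE[2] (convexHull ℝ {P - inner ℝ P u • u, Q - inner ℝ Q u • u, R - inner ℝ R u • u}) := by
  have h := area_triangle_ge (P - inner ℝ P u • u) (Q - inner ℝ Q u • u) (R - inner ℝ R u • u)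
  rwa [proj_sub, proj_sub, gramArea_proj _ _ _ hu] at h

/-- Area of a nondegenerate triangle projected onto `u^⊥`. -/
theorem area_proj_triangle (P Q R u : E3) (hu : ‖u‖ = 1) (h : det3 (Q - P) (R - P) u ≠ 0) :
    μHE[2] (convexHull ℝ {P - inner ℝ P u • u, Q - inner ℝ Q u • u, R - inner ℝ R u • u}) =
      ENNReal.ofReal (|det3 (Q - P) (R - P) u| / 2) := by
  have hpos : 0 < gramArea ((Q - inner ℝ Q u • u) - (P - inner ℝ P u • u))
      ((R - inner ℝ R u • u) - (P - inner ℝ P u • u)) := by
    rw [proj_sub, proj_sub, gramArea_proj _ _ _ hu]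
    exact abs_pos.mpr h
  have h2 := area_triangle _ _ _ hpos
  rwa [proj_sub, proj_sub, gramArea_proj _ _ _ hu] at h2

end Crest.Agent.S0324
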