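import Crest.Agent.S0324.Area
import Crest.Agent.S0324.CoverDefs

/-!
Row 211, WP-E (E2): from the coordinate description of the cover (`inLower`) to triangular
cylinders in `EuclideanSpace ℝ (Fin 3)`, generic in the data `tL tR R wy wt`.
-/

set_option autoImplicit false
open MeasureTheory
open scoped ENNReal

namespace Crest.Agent.S0324

/-- Coordinate description of the standard tetrahedron. -/
lemma K0_coords {X : E3}
    (hX : X ∈ convexHull ℝ ({!₂[1, 0, 0], !₂[-1, 0, 0], !₂[0, 1, Real.sqrt 2],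
      !₂[0, -1, Real.sqrt 2]} : Set E3)) :
    |X 1| ≤ X 2 / Real.sqrt 2 ∧ |X 0| ≤ 1 - X 2 / Real.sqrt 2 := by
  have hs : 0 < Real.sqrt 2 := by positivity
  have hconv : Convex ℝ {X : E3 | |X 1| ≤ X 2 / Real.sqrt 2 ∧ |X 0| ≤ 1 - X 2 / Real.sqrt 2} := by
    intro X hX Y hY a b ha hb hab
    simp only [Set.mem_ofPred_eq, PiLp.add_apply, PiLp.smul_apply, smul_eq_mul] at hX hY ⊢
    obtain ⟨h1, h2⟩ := hX
    obtain ⟨h3, h4⟩ := hY
    rw [abs_le] at h1 h2 h3 h4 ⊢
    rw [abs_le]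
    have e : (a * X 2 + b * Y 2) / Real.sqrt 2 = a * (X 2 / Real.sqrt 2) + b * (Y 2 / Real.sqrt 2) := by
      ring
    rw [e]
    refine ⟨⟨?_, ?_⟩, ⟨?_, ?_⟩⟩
    · nlinarith [mul_le_mul_of_nonneg_left h1.1 ha, mul_le_mul_of_nonneg_left h3.1 hb]
    · nlinarith [mul_le_mul_of_nonneg_left h1.2 ha, mul_le_mul_of_nonneg_left h3.2 hb]
    · nlinarith [mul_le_mul_of_nonneg_left h2.1 ha, mul_le_mul_of_nonneg_left h4.1 hb]
    · nlinarith [mul_le_mul_of_nonneg_left h2.2 ha, mul_le_mul_of_nonneg_left h4.2 hb]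
  have hsub : ({!₂[1, 0, 0], !₂[-1, 0, 0], !₂[0, 1, Real.sqrt 2], !₂[0, -1, Real.sqrt 2]} : Set E3) ⊆
      {X : E3 | |X 1| ≤ X 2 / Real.sqrt 2 ∧ |X 0| ≤ 1 - X 2 / Real.sqrt 2} := by
    intro Y hY
    simp only [Set.mem_insert_iff, Set.mem_singleton_iff] at hY
    rcases hY with rfl | rfl | rfl | rfl <;> simp [div_self hs.ne']
  exact convexHull_min hsub hconv hX

/-- A convex combination of three points lies in their convex hull. -/
lemma convexHull_triple_mem (p q r : E3) (l0 l1 l2 : ℝ) (h0 : 0 ≤ l0) (h1 : 0 ≤ l1) (h2 : 0 ≤ l2)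
    (hs : l0 + l1 + l2 = 1) : l0 • p + l1 • q + l2 • r ∈ convexHull ℝ ({p, q, r} : Set E3) := by
  rw [triangle_eq_image]
  refine ⟨(l1, l2), ⟨h1, h2, by linarith⟩, ?_⟩
  have : l0 = 1 - l1 - l2 := by linarith
  subst this
  simp only [smul_sub, sub_smul, one_smul]
  abel

/-- Membership in a cylinder with unit axis `u` over the projection of a triangle `W0 W1 W2`. -/
lemma mem_cyl_of_bary (u W0 W1 W2 X : E3) (hu : ‖u‖ = 1) (l0 l1 l2 t : ℝ) (h0 : 0 ≤ l0)
    (h1 : 0 ≤ l1) (h2 : 0 ≤ l2) (hs : l0 + l1 + l2 = 1)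
    (hX : X = l0 • W0 + l1 • W1 + l2 • W2 + t • u) :
    ∃ b ∈ convexHull ℝ ({W0 - inner ℝ W0 u • u, W1 - inner ℝ W1 u • u,
        W2 - inner ℝ W2 u • u} : Set E3), ∃ t' : ℝ, X = b + t' • u := by
  refine ⟨projPerp u X, ?_, inner ℝ X u, ?_⟩
  · have huu : projPerp u u = 0 := by
      rw [projPerp_apply, real_inner_self_eq_norm_sq, hu]; simp
    have hp : projPerp u X = l0 • projPerp u W0 + l1 • projPerp u W1 + l2 • projPerp u W2 := by
      rw [hX]
      simp only [map_add, map_smul, huu, smul_zero, add_zero]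
    rw [hp]
    exact convexHull_triple_mem _ _ _ l0 l1 l2 h0 h1 h2 hs
  · rw [projPerp_apply]; abel

/-- Area of the base of such a cylinder. -/
lemma area_cyl (u W0 W1 W2 : E3) (hu : ‖u‖ = 1) (hd : det3 (W1 - W0) (W2 - W0) u ≠ 0) :
    (μHE[2] (convexHull ℝ ({W0 - inner ℝ W0 u • u, W1 - inner ℝ W1 u • u,
        W2 - inner ℝ W2 u • u} : Set E3))).toReal = |det3 (W1 - W0) (W2 - W0) u| / 2 := by
  rw [area_proj_triangle _ _ _ _ hu hd, ENNReal.toReal_ofReal (by positivity)]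

/-- Norm of the (unnormalised) axis vector. -/
noncomputable def snorm (wy wt : ℝ) : ℝ := Real.sqrt (1 + wy ^ 2 + 2 * wt ^ 2)

lemma snorm_pos (wy wt : ℝ) : 0 < snorm wy wt := by
  unfold snorm; positivity

lemma snorm_sq (wy wt : ℝ) : snorm wy wt ^ 2 = 1 + wy ^ 2 + 2 * wt ^ 2 := by
  unfold snorm; rw [Real.sq_sqrt (by positivity)]

/-- Unit axis of a lower cylinder. -/
noncomputable def uLow (wy wt : ℝ) : E3 := (1 / snorm wy wt) • !₂[1, wy, Real.sqrt 2 * wt]

/-- Unit axis of an upper cylinder (image of `uLow` under `(x, y, z) ↦ (y, -x, -z)`). -/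
noncomputable def uUp (wy wt : ℝ) : E3 := (1 / snorm wy wt) • !₂[wy, -1, -(Real.sqrt 2 * wt)]

lemma norm_uLow (wy wt : ℝ) : ‖uLow wy wt‖ = 1 := by
  have hs := snorm_pos wy wt
  have h2 : ‖uLow wy wt‖ ^ 2 = 1 ^ 2 := by
    rw [norm_sq_coord]
    simp only [uLow, PiLp.smul_apply, smul_eq_mul]
    simp only [PiLp.toLp_apply, Matrix.cons_val_zero, Matrix.cons_val_one, Matrix.cons_val_two,
      Matrix.head_cons, Matrix.tail_cons]
    have h3 := snorm_sq wy wt
    have h4 : Real.sqrt 2 ^ 2 = 2 := Real.sq_sqrt (by norm_num)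
    field_simp
    nlinarith
  exact (sq_eq_sq₀ (norm_nonneg _) (by norm_num)).mp h2

lemma norm_uUp (wy wt : ℝ) : ‖uUp wy wt‖ = 1 := by
  have hs := snorm_pos wy wt
  have h2 : ‖uUp wy wt‖ ^ 2 = 1 ^ 2 := by
    rw [norm_sq_coord]
    simp only [uUp, PiLp.smul_apply, smul_eq_mul]
    simp only [PiLp.toLp_apply, Matrix.cons_val_zero, Matrix.cons_val_one, Matrix.cons_val_two,
      Matrix.head_cons, Matrix.tail_cons]
    have h3 := snorm_sq wy wt
    have h4 : Real.sqrt 2 ^ 2 = 2 := Real.sq_sqrt (by norm_num)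
    field_simp
    nlinarith
  exact (sq_eq_sq₀ (norm_nonneg _) (by norm_num)).mp h2

/-- Vertices of the (unprojected) triangle of a lower cylinder (third vertex is `0`). -/
noncomputable def vLow (t R : ℝ) : E3 := !₂[0, t * R, Real.sqrt 2 * R]

/-- Apex of the (unprojected) triangle of an upper cylinder. -/
noncomputable def vUp0 : E3 := !₂[0, 0, Real.sqrt 2]

/-- Other vertices of the (unprojected) triangle of an upper cylinder. -/
noncomputable def vUp (t R : ℝ) : E3 := !₂[t * R, 0, Real.sqrt 2 - Real.sqrt 2 * R]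


lemma sqrt2_sq : Real.sqrt 2 ^ 2 = 2 := Real.sq_sqrt (by norm_num)

lemma sqrt2_mul_self : Real.sqrt 2 * Real.sqrt 2 = 2 := Real.mul_self_sqrt (by norm_num)

/-- A point of a lower cylinder (coordinate description) lies in the geometric cylinder. -/
lemma mem_lower (tL tR R wy wt x y τ : ℝ) (hlt : tL < tR) (hR : 0 < R)
    (h : inLower tL tR R wy wt x y τ) :
    ∃ b ∈ convexHull ℝ ({(0 : E3) - inner ℝ (0 : E3) (uLow wy wt) • uLow wy wt,
        vLow tL R - inner ℝ (vLow tL R) (uLow wy wt) • uLow wy wt,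
        vLow tR R - inner ℝ (vLow tR R) (uLow wy wt) • uLow wy wt} : Set E3),
      ∃ t : ℝ, (!₂[x, y, Real.sqrt 2 * τ] : E3) = b + t • uLow wy wt := by
  obtain ⟨h1, h2, h3⟩ := h
  have hd : 0 < R * (tR - tL) := mul_pos hR (by linarith)
  have hs := snorm_pos wy wt
  refine mem_cyl_of_bary (uLow wy wt) 0 (vLow tL R) (vLow tR R) _ (norm_uLow wy wt)
    (1 - (τ - wt * x) / R) ((tR * (τ - wt * x) - (y - wy * x)) / (R * (tR - tL)))
    (((y - wy * x) - tL * (τ - wt * x)) / (R * (tR - tL))) (x * snorm wy wt) ?_ ?_ ?_ ?_ ?_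
  · rw [sub_nonneg, div_le_one hR]; exact h3
  · exact div_nonneg (by linarith) hd.le
  · exact div_nonneg (by linarith) hd.le
  · have hne : tR - tL ≠ 0 := by linarith
    field_simp
    ring
  · have hne : tR - tL ≠ 0 := by linarith
    ext k
    fin_cases k
    · simp [uLow, vLow]
      field_simp
    · simp [uLow, vLow]
      field_simp
      ring
    · simp [uLow, vLow]
      field_simp
      ring

/-- A point whose image under `(x, y, τ) ↦ (-y, x, 1 - τ)` lies in a lower cylinder (coordinate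
description) lies in the corresponding geometric upper cylinder. -/
lemma mem_upper (tL tR R wy wt x y τ : ℝ) (hlt : tL < tR) (hR : 0 < R)
    (h : inLower tL tR R wy wt (-y) x (1 - τ)) :
    ∃ b ∈ convexHull ℝ ({vUp0 - inner ℝ vUp0 (uUp wy wt) • uUp wy wt,
        vUp tL R - inner ℝ (vUp tL R) (uUp wy wt) • uUp wy wt,
        vUp tR R - inner ℝ (vUp tR R) (uUp wy wt) • uUp wy wt} : Set E3),
      ∃ t : ℝ, (!₂[x, y, Real.sqrt 2 * τ] : E3) = b + t • uUp wy wt := by
  obtain ⟨h1, h2, h3⟩ := h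
  have hd : 0 < R * (tR - tL) := mul_pos hR (by linarith)
  have hs := snorm_pos wy wt
  refine mem_cyl_of_bary (uUp wy wt) vUp0 (vUp tL R) (vUp tR R) _ (norm_uUp wy wt)
    (1 - ((1 - τ) - wt * (-y)) / R)
    ((tR * ((1 - τ) - wt * (-y)) - (x - wy * (-y))) / (R * (tR - tL)))
    (((x - wy * (-y)) - tL * ((1 - τ) - wt * (-y))) / (R * (tR - tL))) (-y * snorm wy wt)
    ?_ ?_ ?_ ?_ ?_
  · rw [sub_nonneg, div_le_one hR]; exact h3
  · exact div_nonneg (by linarith) hd.le
  · exact div_nonneg (by linarith) hd.le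
  · have hne : tR - tL ≠ 0 := by linarith
    field_simp
    ring
  · have hne : tR - tL ≠ 0 := by linarith
    ext k
    fin_cases k
    · simp [uUp, vUp, vUp0]
      field_simp
      ring
    · simp [uUp, vUp, vUp0]
      field_simp
    · simp [uUp, vUp, vUp0]
      field_simp
      ring

lemma det3_lower (tL tR R wy wt : ℝ) :
    det3 (vLow tL R - 0) (vLow tR R - 0) (uLow wy wt) =
      -(Real.sqrt 2 * R ^ 2 * (tR - tL) / snorm wy wt) := by
  have hs := snorm_pos wy wt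
  simp [det3, uLow, vLow]
  field_simp
  ring

lemma det3_upper (tL tR R wy wt : ℝ) :
    det3 (vUp tL R - vUp0) (vUp tR R - vUp0) (uUp wy wt) =
      Real.sqrt 2 * R ^ 2 * (tR - tL) / snorm wy wt := by
  have hs := snorm_pos wy wt
  simp [det3, uUp, vUp, vUp0]
  field_simp
  ring

lemma area_pos_aux (tL tR R wy wt : ℝ) (hlt : tL < tR) (hR : 0 < R) :
    0 < Real.sqrt 2 * R ^ 2 * (tR - tL) / snorm wy wt := by
  have hs := snorm_pos wy wt
  have h2 : 0 < Real.sqrt 2 := by positivity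
  have : 0 < tR - tL := by linarith
  positivity

lemma area_lower (tL tR R wy wt : ℝ) (hlt : tL < tR) (hR : 0 < R) :
    (μHE[2] (convexHull ℝ ({(0 : E3) - inner ℝ (0 : E3) (uLow wy wt) • uLow wy wt,
        vLow tL R - inner ℝ (vLow tL R) (uLow wy wt) • uLow wy wt,
        vLow tR R - inner ℝ (vLow tR R) (uLow wy wt) • uLow wy wt} : Set E3))).toReal =
      Real.sqrt 2 * (R ^ 2 * (tR - tL) / (2 * snorm wy wt)) := by
  have hpos := area_pos_aux tL tR R wy wt hlt hR
  have hs := snorm_pos wy wt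
  rw [area_cyl _ _ _ _ (norm_uLow wy wt) (by rw [det3_lower]; exact (neg_neg_of_pos hpos).ne),
    det3_lower, abs_neg, abs_of_pos hpos]
  field_simp

lemma area_upper (tL tR R wy wt : ℝ) (hlt : tL < tR) (hR : 0 < R) :
    (μHE[2] (convexHull ℝ ({vUp0 - inner ℝ vUp0 (uUp wy wt) • uUp wy wt,
        vUp tL R - inner ℝ (vUp tL R) (uUp wy wt) • uUp wy wt,
        vUp tR R - inner ℝ (vUp tR R) (uUp wy wt) • uUp wy wt} : Set E3))).toReal =
      Real.sqrt 2 * (R ^ 2 * (tR - tL) / (2 * snorm wy wt)) := by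
  have hpos := area_pos_aux tL tR R wy wt hlt hR
  have hs := snorm_pos wy wt
  rw [area_cyl _ _ _ _ (norm_uUp wy wt) (by rw [det3_upper]; exact hpos.ne'),
    det3_upper, abs_of_pos hpos]
  field_simp


/-- **E2**: from the coordinate-level cover and area bound to an actual cover of the standard
tetrahedron by `2 * M` triangular cylinders. -/
theorem cover_of_core (M : ℕ) (tL tR R wy wt : ℕ → ℝ) (g : ℝ)
    (hlt : ∀ i, i < M → tL i < tR i) (hR : ∀ i, i < M → 0 < R i)
    (hcov : ∀ x y τ : ℝ, |y| ≤ τ → |x| ≤ 1 - τ →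
      (∃ i, i < M ∧ inLower (tL i) (tR i) (R i) (wy i) (wt i) x y τ) ∨
      (∃ j, j < M ∧ inLower (tL j) (tR j) (R j) (wy j) (wt j) (-y) x (1 - τ)))
    (hsum : ∑ i ∈ Finset.range M,
      R i ^ 2 * (tR i - tL i) / (2 * Real.sqrt (1 + wy i ^ 2 + 2 * wt i ^ 2)) ≤ g / 2) :
    ∃ (u p q r : Fin (2 * M) → E3),
      (∀ i, ‖u i‖ = 1) ∧
      (∀ i, inner ℝ (p i) (u i) = 0 ∧ inner ℝ (q i) (u i) = 0 ∧ inner ℝ (r i) (u i) = 0) ∧
      convexHull ℝ ({!₂[1, 0, 0], !₂[-1, 0, 0], !₂[0, 1, Real.sqrt 2],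
          !₂[0, -1, Real.sqrt 2]} : Set E3) ⊆
        ⋃ i, {x : E3 | ∃ b ∈ convexHull ℝ {p i, q i, r i}, ∃ t : ℝ, x = b + t • u i} ∧
      ∑ i, (μHE[2] (convexHull ℝ ({p i, q i, r i} : Set E3))).toReal ≤ Real.sqrt 2 * g := by
  classical
  set U : ℕ → E3 := fun k => if k < M then uLow (wy k) (wt k) else uUp (wy (k - M)) (wt (k - M))
    with hU
  set A0 : ℕ → E3 := fun k => if k < M then (0 : E3) else vUp0 with hA0
  set A1 : ℕ → E3 := fun k => if k < M then vLow (tL k) (R k) else vUp (tL (k - M)) (R (k - M))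
    with hA1
  set A2 : ℕ → E3 := fun k => if k < M then vLow (tR k) (R k) else vUp (tR (k - M)) (R (k - M))
    with hA2
  have hunit : ∀ k : ℕ, ‖U k‖ = 1 := by
    intro k
    by_cases h : k < M
    · simp only [hU, if_pos h]; exact norm_uLow _ _
    · simp only [hU, if_neg h]; exact norm_uUp _ _
  refine ⟨fun i => U i, fun i => A0 i - inner ℝ (A0 i) (U i) • U i,
    fun i => A1 i - inner ℝ (A1 i) (U i) • U i, fun i => A2 i - inner ℝ (A2 i) (U i) • U i,
    fun i => hunit i, fun i => ⟨inner_projPerp _ _ (hunit i), inner_projPerp _ _ (hunit i),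
      inner_projPerp _ _ (hunit i)⟩, ?_, ?_⟩
  · intro X hX
    obtain ⟨h1, h2⟩ := K0_coords hX
    have hs2 : Real.sqrt 2 ≠ 0 := by positivity
    have hXe : X = !₂[X 0, X 1, Real.sqrt 2 * (X 2 / Real.sqrt 2)] := by
      ext k
      fin_cases k
      · simp
      · simp
      · simp only [Fin.reduceFinMk]
        show X 2 = Real.sqrt 2 * (X 2 / Real.sqrt 2)
        field_simp
    rw [Set.mem_iUnion]
    rcases hcov (X 0) (X 1) (X 2 / Real.sqrt 2) h1 h2 with ⟨i, hi, hin⟩ | ⟨j, hj, hin⟩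
    · refine ⟨⟨i, by omega⟩, ?_⟩
      have hm := mem_lower _ _ _ _ _ _ _ _ (hlt i hi) (hR i hi) hin
      rw [← hXe] at hm
      simp only [Set.mem_ofPred_eq, hU, hA0, hA1, hA2, if_pos hi]
      exact hm
    · refine ⟨⟨M + j, by omega⟩, ?_⟩
      have hm := mem_upper _ _ _ _ _ _ _ _ (hlt j hj) (hR j hj) hin
      rw [← hXe] at hm
      have hnot : ¬ (M + j < M) := by omega
      simp only [Set.mem_ofPred_eq, hU, hA0, hA1, hA2, if_neg hnot, Nat.add_sub_cancel_left]
      exact hm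
  · have hconv := Fin.sum_univ_eq_sum_range (fun k : ℕ =>
      (μHE[2] (convexHull ℝ ({A0 k - inner ℝ (A0 k) (U k) • U k,
        A1 k - inner ℝ (A1 k) (U k) • U k, A2 k - inner ℝ (A2 k) (U k) • U k} : Set E3))).toReal)
      (2 * M)
    rw [hconv, two_mul, Finset.sum_range_add]
    have hlow : ∑ k ∈ Finset.range M,
        (μHE[2] (convexHull ℝ ({A0 k - inner ℝ (A0 k) (U k) • U k,
          A1 k - inner ℝ (A1 k) (U k) • U k, A2 k - inner ℝ (A2 k) (U k) • U k} : Set E3))).toReal =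
        ∑ k ∈ Finset.range M, Real.sqrt 2 *
          (R k ^ 2 * (tR k - tL k) / (2 * Real.sqrt (1 + wy k ^ 2 + 2 * wt k ^ 2))) := by
      apply Finset.sum_congr rfl
      intro k hk
      have hk' : k < M := Finset.mem_range.mp hk
      simp only [hU, hA0, hA1, hA2, if_pos hk']
      exact area_lower _ _ _ _ _ (hlt k hk') (hR k hk')
    have hup : ∑ k ∈ Finset.range M,
        (μHE[2] (convexHull ℝ ({A0 (M + k) - inner ℝ (A0 (M + k)) (U (M + k)) • U (M + k),
          A1 (M + k) - inner ℝ (A1 (M + k)) (U (M + k)) • U (M + k),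
          A2 (M + k) - inner ℝ (A2 (M + k)) (U (M + k)) • U (M + k)} : Set E3))).toReal =
        ∑ k ∈ Finset.range M, Real.sqrt 2 *
          (R k ^ 2 * (tR k - tL k) / (2 * Real.sqrt (1 + wy k ^ 2 + 2 * wt k ^ 2))) := by
      apply Finset.sum_congr rfl
      intro k hk
      have hk' : k < M := Finset.mem_range.mp hk
      have hnot : ¬ (M + k < M) := by omega
      simp only [hU, hA0, hA1, hA2, if_neg hnot, Nat.add_sub_cancel_left]
      exact area_upper _ _ _ _ _ (hlt k hk') (hR k hk')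
    rw [hlow, hup, ← Finset.mul_sum]
    have h2 : 0 ≤ Real.sqrt 2 := Real.sqrt_nonneg 2
    nlinarith [mul_le_mul_of_nonneg_left hsum h2]

end Crest.Agent.S0324
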