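import Mathlib

/-!
# Row 211, WP-E, part E1: the covering inequality in pure real arithmetic (helper90)

Coordinates `(x, y, τ)` with `τ = z/√2`; the tetrahedron is `|y| ≤ τ`, `|x| ≤ 1 - τ`.
Tilt parameter `c = 1/100`.  A lower cylinder with tag `a` and wedge slopes `θ₁, θ₂` is
`θ₁ τ' ≤ y' ≤ θ₂ τ'`, `τ' ≤ capR m a`, with `τ' = τ - c a x`, `y' = y - c (a²+1)/2 x`
(both constant along the axis `(1, c(a²+1)/2, c a)` in `(x,y,τ)`-coordinates).
Upper cylinders are the images under `(x,y,τ) ↦ (y,-x,1-τ)`.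
Main results: `caps_not_both_fail` (the saddle matching inequality) and `cover`.
-/

namespace Crest.Agent.S0324
namespace CoverIneq

/-- cap height of the cylinder with tag `a` (margin `m`), tilt `c = 1/100`. -/
noncomputable def capR (m a : ℝ) : ℝ := 1/2 + (1/100:ℝ)^2 * (a^2 + a^4)/4 + m

/-- `(x,y,τ)` lies in the lower cylinder with tag `a`, wedge slopes `θ₁, θ₂`, margin `m`. -/
def InLow (m a θ₁ θ₂ x y τ : ℝ) : Prop :=
  θ₁ * (τ - (1/100:ℝ)*a*x) ≤ y - (1/100:ℝ)*(a^2+1)/2*x ∧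
  y - (1/100:ℝ)*(a^2+1)/2*x ≤ θ₂ * (τ - (1/100:ℝ)*a*x) ∧
  τ - (1/100:ℝ)*a*x ≤ capR m a

lemma mono_bd {a b : ℝ} (ha : |a| ≤ 1) (hb : |b| ≤ 1) (i j : ℕ) :
    -1 ≤ a^i * b^j ∧ a^i * b^j ≤ 1 := by
  have h1 : |a^i * b^j| ≤ 1 := by
    rw [abs_mul, abs_pow, abs_pow]
    exact mul_le_one₀ (pow_le_one₀ (abs_nonneg a) ha) (pow_nonneg (abs_nonneg b) j)
      (pow_le_one₀ (abs_nonneg b) hb)
  exact abs_le.mp h1

/-- auxiliary polynomial `p` -/
noncomputable def pP (a b : ℝ) : ℝ :=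
  (40001/40000) + (-1/100) * a * b + (1/40000) * a^2 + (-1/40000) * a^2 * b^2 + (-1/40000) * b^2

/-- auxiliary polynomial `q` -/
noncomputable def qP (a b : ℝ) : ℝ :=
  (40001/40000) + (1/100) * a * b + (-1/40000) * a^2 + (-1/40000) * a^2 * b^2 + (1/40000) * b^2

/-- auxiliary polynomial `D` -/
noncomputable def dP (a b : ℝ) : ℝ :=
  (40001/40000) + (-1/40000) * a^2 + (1/40000) * a^2 * b^2 + (-1/40000) * b^2

/-- auxiliary polynomial `Cm` -/
noncomputable def cmP (a b : ℝ) : ℝ :=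
  (1600080001/800000000) + (-40001/800000000) * a^2 + (1/800000000) * a^2 * b^4 + (1/800000000) * a^4 * b^2 + (-1/800000000) * a^4 * b^4 + (-40001/800000000) * b^2

/-- auxiliary polynomial `E1` -/
noncomputable def e1P (a b : ℝ) : ℝ :=
  (-40001/800000000) * a + (-1/20000) * a * b^2 + (1/800000000) * a * b^4 + (-1/4000000) * a^2 * b + (1/4000000) * a^2 * b^3 + (1/800000000) * a^3 + (-1/800000000) * a^3 * b^4 + (40001/4000000) * b + (-1/4000000) * b^3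

/-- auxiliary polynomial `E2` -/
noncomputable def e2P (a b : ℝ) : ℝ :=
  (-40001/4000000) * a + (1/4000000) * a * b^2 + (-1/20000) * a^2 * b + (1/4000000) * a^3 + (-1/4000000) * a^3 * b^2 + (1/800000000) * a^4 * b + (-1/800000000) * a^4 * b^3 + (-40001/800000000) * b + (1/800000000) * b^3

/-- auxiliary polynomial `M` -/
noncomputable def mP (a b : ℝ) : ℝ :=
  (-40001/160000000000) * a * b^3 + (-1/4000000) * a * b^5 + (1/160000000000) * a * b^7 + (40001/64000000000000) * a^2 + (-1/20000) * a^2 * b^2 + (39999/64000000000000) * a^2 * b^4 + (40001/160000000000) * a^3 * b + (-1/160000000000) * a^3 * b^7 + (1600039999/64000000000000) * a^4 + (39999/64000000000000) * a^4 * b^2 + (-39999/32000000000000) * a^4 * b^4 + (1/64000000000000) * a^4 * b^6 + (-1/64000000000000) * a^4 * b^8 + (1/4000000) * a^5 * b + (-80001/64000000000000) * a^6 + (1/64000000000000) * a^6 * b^4 + (-1/160000000000) * a^7 * b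 + (1/160000000000) * a^7 * b^3 + (1/64000000000000) * a^8 + (-1/64000000000000) * a^8 * b^4 + (40001/64000000000000) * b^2 + (1600039999/64000000000000) * b^4 + (-80001/64000000000000) * b^6 + (1/64000000000000) * b^8

lemma poly_bounds {a b : ℝ} (ha : |a| ≤ 1) (hb : |b| ≤ 1) :
    (19997/10000 : ℝ) ≤ cmP a b ∧ |e1P a b| ≤ 1011/100000 ∧ |e2P a b| ≤ 1011/100000 ∧
      -(107/10^10 : ℝ) ≤ mP a b ∧ 0 < pP a b ∧ 0 < qP a b ∧ 0 < dP a b := by
  have h0_1 := mono_bd ha hb 0 1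
  have h0_2 := mono_bd ha hb 0 2
  have h0_3 := mono_bd ha hb 0 3
  have h0_4 := mono_bd ha hb 0 4
  have h0_6 := mono_bd ha hb 0 6
  have h0_8 := mono_bd ha hb 0 8
  have h1_0 := mono_bd ha hb 1 0
  have h1_1 := mono_bd ha hb 1 1
  have h1_2 := mono_bd ha hb 1 2
  have h1_3 := mono_bd ha hb 1 3
  have h1_4 := mono_bd ha hb 1 4
  have h1_7 := mono_bd ha hb 1 7
  have h2_0 := mono_bd ha hb 2 0
  have h2_1 := mono_bd ha hb 2 1
  have h2_2 := mono_bd ha hb 2 2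
  have h2_3 := mono_bd ha hb 2 3
  have h2_4 := mono_bd ha hb 2 4
  have h2_6 := mono_bd ha hb 2 6
  have h3_0 := mono_bd ha hb 3 0
  have h3_1 := mono_bd ha hb 3 1
  have h3_2 := mono_bd ha hb 3 2
  have h3_4 := mono_bd ha hb 3 4
  have h3_7 := mono_bd ha hb 3 7
  have h4_0 := mono_bd ha hb 4 0
  have h4_1 := mono_bd ha hb 4 1
  have h4_2 := mono_bd ha hb 4 2
  have h4_3 := mono_bd ha hb 4 3
  have h4_4 := mono_bd ha hb 4 4
  have h4_6 := mono_bd ha hb 4 6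
  have h4_8 := mono_bd ha hb 4 8
  have h6_0 := mono_bd ha hb 6 0
  have h6_2 := mono_bd ha hb 6 2
  have h6_4 := mono_bd ha hb 6 4
  have h7_1 := mono_bd ha hb 7 1
  have h7_3 := mono_bd ha hb 7 3
  have h8_0 := mono_bd ha hb 8 0
  have h8_4 := mono_bd ha hb 8 4
  have hsq := sq_nonneg (a^2 - b^2 + (1/200:ℝ) * a * b * (1 + a^2 + b^2))
  simp only [pow_zero, pow_one, one_mul, mul_one] at *
  refine ⟨?_, ?_, ?_, ?_, ?_, ?_, ?_⟩
  · unfold cmP; linarith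
  · rw [abs_le]; unfold e1P; constructor <;> linarith
  · rw [abs_le]; unfold e2P; constructor <;> linarith
  · unfold mP; linarith
  · unfold pP; linarith
  · unfold qP; linarith
  · unfold dP; linarith

set_option maxHeartbeats 2000000 in
/-- **Saddle matching.** If `(x,y,τ)` lies in the wedge with tag `a` of the lower family and
its mirror image `(y,-x,1-τ)` lies in the wedge with tag `b`, the wedge slopes being within
`h/2` of the tags, then one of the two caps holds, provided the margin is at least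
`10⁻⁸ + h/100`. -/
theorem caps_not_both_fail (h m a b θ₁ θ₂ φ₁ φ₂ x y τ : ℝ)
    (hh : 0 ≤ h) (hm : 1/10^8 + h/100 ≤ m)
    (ha : |a| ≤ 1) (hb : |b| ≤ 1)
    (hθ₁ : |θ₁ - a| ≤ h/2) (hθ₂ : |θ₂ - a| ≤ h/2)
    (hφ₁ : |φ₁ - b| ≤ h/2) (hφ₂ : |φ₂ - b| ≤ h/2)
    (hy : |y| ≤ τ) (hx : |x| ≤ 1 - τ)
    (w1 : θ₁ * (τ - (1/100:ℝ)*a*x) ≤ y - (1/100:ℝ)*(a^2+1)/2*x)
    (w2 : y - (1/100:ℝ)*(a^2+1)/2*x ≤ θ₂ * (τ - (1/100:ℝ)*a*x))
    (v1 : φ₁ * ((1-τ) - (1/100:ℝ)*b*y) ≤ -x - (1/100:ℝ)*(b^2+1)/2*y)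
    (v2 : -x - (1/100:ℝ)*(b^2+1)/2*y ≤ φ₂ * ((1-τ) - (1/100:ℝ)*b*y)) :
    τ - (1/100:ℝ)*a*x ≤ capR m a ∨ (1-τ) - (1/100:ℝ)*b*y ≤ capR m b := by
  by_contra hcon
  push Not at hcon
  obtain ⟨hA, hB⟩ := hcon
  obtain ⟨hCm, hE1, hE2, hM, hp, hq, hD⟩ := poly_bounds ha hb
  have hx' := abs_le.mp hx
  have hy' := abs_le.mp hy
  have hm0 : 0 ≤ m := by
    have : (0:ℝ) ≤ 1/10^8 := by positivity
    linarith
  have hτle : τ ≤ 1 := by linarith [abs_nonneg x]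
  have hτge : 0 ≤ τ := by linarith [abs_nonneg y]
  have hRa : (1/2:ℝ) ≤ capR m a := by
    unfold capR
    have : 0 ≤ (1/100:ℝ)^2 * (a^2 + a^4)/4 := by positivity
    linarith
  have hRb : (1/2:ℝ) ≤ capR m b := by
    unfold capR
    have : 0 ≤ (1/100:ℝ)^2 * (b^2 + b^4)/4 := by positivity
    linarith
  have hax : |a * x| ≤ 1 - τ := by
    rw [abs_mul]
    calc |a| * |x| ≤ 1 * |x| := by gcongr
      _ ≤ 1 - τ := by linarith
  have hby : |b * y| ≤ τ := by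
    rw [abs_mul]
    calc |b| * |y| ≤ 1 * |y| := by gcongr
      _ ≤ τ := by linarith
  have hax' := abs_le.mp hax
  have hby' := abs_le.mp hby
  have hτ0 : 0 < τ - (1/100:ℝ)*a*x := by linarith
  have hτ1 : τ - (1/100:ℝ)*a*x ≤ 1 := by linarith
  have hT0 : 0 < (1-τ) - (1/100:ℝ)*b*y := by linarith
  have hT1 : (1-τ) - (1/100:ℝ)*b*y ≤ 1 := by linarith
  have hθ₁' := abs_le.mp hθ₁
  have hθ₂' := abs_le.mp hθ₂
  have hφ₁' := abs_le.mp hφ₁
  have hφ₂' := abs_le.mp hφ₂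
  -- deviations from the tag planes
  obtain ⟨e₁, he₁⟩ : ∃ e₁ : ℝ, e₁ = y - (1/100:ℝ)*(a^2+1)/2*x - a*(τ - (1/100:ℝ)*a*x) := ⟨_, rfl⟩
  obtain ⟨e₂, he₂⟩ : ∃ e₂ : ℝ, e₂ = -x - (1/100:ℝ)*(b^2+1)/2*y - b*((1-τ) - (1/100:ℝ)*b*y) :=
    ⟨_, rfl⟩
  have he₁b : |e₁| ≤ h/2 := by
    rw [abs_le]
    constructor
    · have h1 := mul_nonneg (by linarith : 0 ≤ θ₁ - a + h/2) hτ0.le
      have h2 := mul_nonneg (by linarith : 0 ≤ h/2) (by linarith : 0 ≤ 1 - (τ - (1/100:ℝ)*a*x))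
      rw [he₁]; linarith
    · have h1 := mul_nonneg (by linarith : 0 ≤ a + h/2 - θ₂) hτ0.le
      have h2 := mul_nonneg (by linarith : 0 ≤ h/2) (by linarith : 0 ≤ 1 - (τ - (1/100:ℝ)*a*x))
      rw [he₁]; linarith
  have he₂b : |e₂| ≤ h/2 := by
    rw [abs_le]
    constructor
    · have h1 := mul_nonneg (by linarith : 0 ≤ φ₁ - b + h/2) hT0.le
      have h2 := mul_nonneg (by linarith : 0 ≤ h/2)
        (by linarith : 0 ≤ 1 - ((1-τ) - (1/100:ℝ)*b*y))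
      rw [he₂]; linarith
    · have h1 := mul_nonneg (by linarith : 0 ≤ b + h/2 - φ₂) hT0.le
      have h2 := mul_nonneg (by linarith : 0 ≤ h/2)
        (by linarith : 0 ≤ 1 - ((1-τ) - (1/100:ℝ)*b*y))
      rw [he₂]; linarith
  have key : qP a b * dP a b * (capR m a - (τ - (1/100:ℝ)*a*x)) +
      pP a b * dP a b * (capR m b - ((1-τ) - (1/100:ℝ)*b*y)) =
      mP a b + cmP a b * m + e1P a b * e₁ + e2P a b * e₂ := by
    rw [he₁, he₂]; unfold qP pP dP capR mP cmP e1P e2P; ring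
  have hneg : qP a b * dP a b * (capR m a - (τ - (1/100:ℝ)*a*x)) +
      pP a b * dP a b * (capR m b - ((1-τ) - (1/100:ℝ)*b*y)) < 0 := by
    have h1 : qP a b * dP a b * (capR m a - (τ - (1/100:ℝ)*a*x)) < 0 :=
      mul_neg_of_pos_of_neg (mul_pos hq hD) (by linarith)
    have h2 : pP a b * dP a b * (capR m b - ((1-τ) - (1/100:ℝ)*b*y)) < 0 :=
      mul_neg_of_pos_of_neg (mul_pos hp hD) (by linarith)
    linarith
  have hE1e : |e1P a b * e₁| ≤ 1011/100000 * (h/2) := by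
    rw [abs_mul]; exact mul_le_mul hE1 he₁b (abs_nonneg _) (by norm_num)
  have hE2e : |e2P a b * e₂| ≤ 1011/100000 * (h/2) := by
    rw [abs_mul]; exact mul_le_mul hE2 he₂b (abs_nonneg _) (by norm_num)
  have hE1e' := abs_le.mp hE1e
  have hE2e' := abs_le.mp hE2e
  have hCmm : (19997/10000 : ℝ) * m ≤ cmP a b * m := mul_le_mul_of_nonneg_right hCm hm0
  have hnum : (1:ℝ)/10^8 = 1/100000000 := by norm_num
  have hnum2 : (107:ℝ)/10^10 = 107/10000000000 := by norm_num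
  rw [hnum] at hm
  rw [hnum2] at hM
  linarith

/-- **Wedge selection** (discrete intermediate value): for a tag sequence `T` with
`T 0 = T 1 = -1` and `T (n+1) = T (n+2) = 1`, every point with `|y| ≤ τ` lies in the wedge of
some cylinder `i ≤ n` (tag `T (i+1)`, slopes `(T i + T (i+1))/2` and `(T (i+1) + T (i+2))/2`). -/
theorem exists_wedge (n : ℕ) (T : ℕ → ℝ) (hT0 : T 0 = -1) (hT1 : T 1 = -1)
    (hTn1 : T (n+1) = 1) (hTn2 : T (n+2) = 1) (x y τ : ℝ) (hy : |y| ≤ τ) :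
    ∃ i, i ≤ n ∧
      (T i + T (i+1))/2 * (τ - (1/100:ℝ)*T (i+1)*x) ≤ y - (1/100:ℝ)*((T (i+1))^2+1)/2*x ∧
      y - (1/100:ℝ)*((T (i+1))^2+1)/2*x ≤ (T (i+1) + T (i+2))/2 * (τ - (1/100:ℝ)*T (i+1)*x) := by
  have hy' := abs_le.mp hy
  -- f k = y - θ_k τ + Γ_k x
  obtain ⟨f, hf⟩ : ∃ f : ℕ → ℝ, ∀ k, f k =
      y - (T k + T (k+1))/2 * τ + (1/100:ℝ)*(T k * T (k+1) - 1)/2 * x := ⟨_, fun _ => rfl⟩
  have hf0 : 0 ≤ f 0 := by rw [hf, hT0, hT1]; linarith
  have hfn : f (n+1) ≤ 0 := by rw [hf, hTn1, hTn2]; linarith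
  have hex : ∃ k, f (k+1) ≤ 0 := ⟨n, hfn⟩
  classical
  let i := Nat.find hex
  have hi : f (i+1) ≤ 0 := Nat.find_spec hex
  have hin : i ≤ n := Nat.find_min' hex hfn
  have hi0 : 0 ≤ f i := by
    rcases Nat.eq_zero_or_pos i with h0 | hpos
    · rw [h0]; exact hf0
    · have hlt : i - 1 < i := Nat.sub_lt hpos Nat.one_pos
      have hnot := Nat.find_min hex hlt
      have heq : i - 1 + 1 = i := Nat.sub_add_cancel hpos
      rw [heq] at hnot
      exact le_of_lt (not_le.mp hnot)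
  refine ⟨i, hin, ?_, ?_⟩
  · have := hf i
    nlinarith [this, hi0]
  · have := hf (i+1)
    nlinarith [this, hi]

/-- **Covering, pure-real form.** Tags `T 0 = T 1 = -1 ≤ … ≤ T (n+1) = T (n+2) = 1` with steps
at most `h`, margin `m ≥ 10⁻⁸ + h/100`.  Every point `(x,y,τ)` of the tetrahedron
(`|y| ≤ τ`, `|x| ≤ 1 - τ`) lies in a lower cylinder, or its mirror image `(y,-x,1-τ)` does. -/
theorem cover (n : ℕ) (T : ℕ → ℝ) (h m : ℝ) (hh : 0 ≤ h) (hm : 1/10^8 + h/100 ≤ m)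
    (hT0 : T 0 = -1) (hT1 : T 1 = -1) (hTn1 : T (n+1) = 1) (hTn2 : T (n+2) = 1)
    (hTabs : ∀ k, |T k| ≤ 1) (hTstep : ∀ k, |T (k+1) - T k| ≤ h)
    (x y τ : ℝ) (hy : |y| ≤ τ) (hx : |x| ≤ 1 - τ) :
    (∃ i, i ≤ n ∧ InLow m (T (i+1)) ((T i + T (i+1))/2) ((T (i+1) + T (i+2))/2) x y τ) ∨
    (∃ j, j ≤ n ∧ InLow m (T (j+1)) ((T j + T (j+1))/2) ((T (j+1) + T (j+2))/2) y (-x) (1-τ)) := by
  obtain ⟨i, hi, w1, w2⟩ := exists_wedge n T hT0 hT1 hTn1 hTn2 x y τ hy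
  have hx2 : |(-x)| ≤ 1 - τ := by rw [abs_neg]; exact hx
  obtain ⟨j, hj, v1, v2⟩ := exists_wedge n T hT0 hT1 hTn1 hTn2 y (-x) (1-τ) hx2
  have hθ₁ : |(T i + T (i+1))/2 - T (i+1)| ≤ h/2 := by
    have := hTstep i
    rw [abs_le] at this ⊢
    constructor <;> linarith
  have hθ₂ : |(T (i+1) + T (i+2))/2 - T (i+1)| ≤ h/2 := by
    have := hTstep (i+1)
    rw [abs_le] at this ⊢
    constructor <;> linarith
  have hφ₁ : |(T j + T (j+1))/2 - T (j+1)| ≤ h/2 := by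
    have := hTstep j
    rw [abs_le] at this ⊢
    constructor <;> linarith
  have hφ₂ : |(T (j+1) + T (j+2))/2 - T (j+1)| ≤ h/2 := by
    have := hTstep (j+1)
    rw [abs_le] at this ⊢
    constructor <;> linarith
  rcases caps_not_both_fail h m (T (i+1)) (T (j+1)) _ _ _ _ x y τ hh hm (hTabs _) (hTabs _)
      hθ₁ hθ₂ hφ₁ hφ₂ hy hx w1 w2 v1 v2 with hc | hc
  · exact Or.inl ⟨i, hi, w1, w2, hc⟩
  · exact Or.inr ⟨j, hj, v1, v2, hc⟩

/-- Variant of `cover` for the mirror map `(x,y,τ) ↦ (-y,x,1-τ)`. -/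
theorem cover' (n : ℕ) (T : ℕ → ℝ) (h m : ℝ) (hh : 0 ≤ h) (hm : 1/10^8 + h/100 ≤ m)
    (hT0 : T 0 = -1) (hT1 : T 1 = -1) (hTn1 : T (n+1) = 1) (hTn2 : T (n+2) = 1)
    (hTabs : ∀ k, |T k| ≤ 1) (hTstep : ∀ k, |T (k+1) - T k| ≤ h)
    (x y τ : ℝ) (hy : |y| ≤ τ) (hx : |x| ≤ 1 - τ) :
    (∃ i, i ≤ n ∧ InLow m (T (i+1)) ((T i + T (i+1))/2) ((T (i+1) + T (i+2))/2) x y τ) ∨
    (∃ j, j ≤ n ∧ InLow m (T (j+1)) ((T j + T (j+1))/2) ((T (j+1) + T (j+2))/2) (-y) x (1-τ)) := by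
  obtain ⟨i, hi, w1, w2⟩ := exists_wedge n T hT0 hT1 hTn1 hTn2 x y τ hy
  obtain ⟨j, hj, v1, v2⟩ := exists_wedge n T hT0 hT1 hTn1 hTn2 (-y) x (1-τ) hx
  have hθ₁ : |(-((T (i+1) + T (i+2))/2)) - (-T (i+1))| ≤ h/2 := by
    have := hTstep (i+1)
    rw [abs_le] at this ⊢
    constructor <;> linarith
  have hθ₂ : |(-((T i + T (i+1))/2)) - (-T (i+1))| ≤ h/2 := by
    have := hTstep i
    rw [abs_le] at this ⊢
    constructor <;> linarith
  have hφ₁ : |(T j + T (j+1))/2 - T (j+1)| ≤ h/2 := by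
    have := hTstep j
    rw [abs_le] at this ⊢
    constructor <;> linarith
  have hφ₂ : |(T (j+1) + T (j+2))/2 - T (j+1)| ≤ h/2 := by
    have := hTstep (j+1)
    rw [abs_le] at this ⊢
    constructor <;> linarith
  have ha : |(-T (i+1))| ≤ 1 := by rw [abs_neg]; exact hTabs _
  have hy2 : |(-y)| ≤ τ := by rw [abs_neg]; exact hy
  have hx2 : |(-x)| ≤ 1 - τ := by rw [abs_neg]; exact hx
  have w1' : (-((T (i+1) + T (i+2))/2)) * (τ - (1/100:ℝ)*(-T (i+1))*(-x)) ≤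
      (-y) - (1/100:ℝ)*((-T (i+1))^2+1)/2*(-x) := by linarith
  have w2' : (-y) - (1/100:ℝ)*((-T (i+1))^2+1)/2*(-x) ≤
      (-((T i + T (i+1))/2)) * (τ - (1/100:ℝ)*(-T (i+1))*(-x)) := by linarith
  have v1' : (T j + T (j+1))/2 * ((1-τ) - (1/100:ℝ)*T (j+1)*(-y)) ≤
      -(-x) - (1/100:ℝ)*((T (j+1))^2+1)/2*(-y) := by linarith
  have v2' : -(-x) - (1/100:ℝ)*((T (j+1))^2+1)/2*(-y) ≤
      (T (j+1) + T (j+2))/2 * ((1-τ) - (1/100:ℝ)*T (j+1)*(-y)) := by linarith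
  have hcapneg : capR m (-T (i+1)) = capR m (T (i+1)) := by unfold capR; ring
  rcases caps_not_both_fail h m (-T (i+1)) (T (j+1)) _ _ _ _ (-x) (-y) τ hh hm ha (hTabs _)
      hθ₁ hθ₂ hφ₁ hφ₂ hy2 hx2 w1' w2' v1' v2' with hc | hc
  · refine Or.inl ⟨i, hi, w1, w2, ?_⟩
    rw [hcapneg] at hc; linarith
  · exact Or.inr ⟨j, hj, v1, v2, hc⟩

/-! ### The uniform grid, in the interface shape requested by helper60 (post 87), `c = 1/100`. -/

/-- uniform tags `-1 + 2 i / n`, `i = 0..n`. -/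
noncomputable def tag (n i : ℕ) : ℝ := -1 + 2 * (i:ℝ) / (n:ℝ)
/-- left wedge slope of cylinder `i`. -/
noncomputable def thatL (n i : ℕ) : ℝ := if i = 0 then -1 else (tag n (i-1) + tag n i)/2
/-- right wedge slope of cylinder `i`. -/
noncomputable def thatR (n i : ℕ) : ℝ := if i = n then 1 else (tag n i + tag n (i+1))/2
/-- cap height with margin `c⁴ + c·(2/n)`. -/
noncomputable def capRc (c : ℝ) (n i : ℕ) : ℝ :=
  1/2 + c^2*((tag n i)^2 + (tag n i)^4)/4 + c^4 + c*(2/(n:ℝ))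
/-- `y`-tilt of the axis of cylinder `i`. -/
noncomputable def wy (c : ℝ) (n i : ℕ) : ℝ := c*((tag n i)^2+1)/2
/-- `τ`-tilt of the axis of cylinder `i`. -/
noncomputable def wt (c : ℝ) (n i : ℕ) : ℝ := c * tag n i
/-- membership in lower cylinder `i` of the uniform grid. -/
def inLower (c : ℝ) (n i : ℕ) (x y τ : ℝ) : Prop :=
  thatL n i * (τ - wt c n i * x) ≤ y - wy c n i * x ∧
  y - wy c n i * x ≤ thatR n i * (τ - wt c n i * x) ∧
  τ - wt c n i * x ≤ capRc c n i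

/-- the clamped tag sequence `-1, tag 0, …, tag n, 1`. -/
noncomputable def tagSeq (n k : ℕ) : ℝ := tag n (min (k-1) n)

lemma tag_zero (n : ℕ) : tag n 0 = -1 := by simp [tag]

lemma tag_self (n : ℕ) (hn : 1 ≤ n) : tag n n = 1 := by
  have : (n:ℝ) ≠ 0 := by positivity
  unfold tag; field_simp; ring

lemma tag_succ (n i : ℕ) (hn : 1 ≤ n) : tag n (i+1) = tag n i + 2/(n:ℝ) := by
  have : (n:ℝ) ≠ 0 := by positivity
  unfold tag; push_cast; field_simp; ring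

lemma tag_mem (n i : ℕ) (hn : 1 ≤ n) (hi : i ≤ n) : |tag n i| ≤ 1 := by
  have hn0 : (0:ℝ) < n := by positivity
  have hi' : (i:ℝ) ≤ n := by exact_mod_cast hi
  have h1 : 0 ≤ (i:ℝ)/(n:ℝ) := by positivity
  have h2 : (i:ℝ)/(n:ℝ) ≤ 1 := by rw [div_le_one hn0]; exact hi'
  unfold tag
  rw [abs_le]; constructor <;> linarith [mul_div_assoc (2:ℝ) (i:ℝ) (n:ℝ)]

lemma thatL_lt_thatR (n i : ℕ) (hn : 1 ≤ n) (hi : i ≤ n) : thatL n i < thatR n i := by
  have hn0 : (0:ℝ) < 2/(n:ℝ) := by positivity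
  unfold thatL thatR
  by_cases h0 : i = 0
  · subst h0
    by_cases hn' : 0 = n
    · omega
    · simp only [if_true, if_neg hn', tag_zero, zero_add, tag_succ n 0 hn]
      linarith
  · obtain ⟨k, rfl⟩ := Nat.exists_eq_succ_of_ne_zero h0
    by_cases hk : k + 1 = n
    · simp only [if_neg h0, if_pos hk, Nat.add_sub_cancel, Nat.succ_eq_add_one]
      rw [hk, tag_self n hn]
      have := tag_succ n k hn
      rw [hk, tag_self n hn] at this
      linarith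
    · simp only [if_neg h0, if_neg hk, Nat.add_sub_cancel, Nat.succ_eq_add_one,
        tag_succ n (k+1) hn, tag_succ n k hn]
      linarith

lemma capRc_pos (c : ℝ) (hc : 0 ≤ c) (n i : ℕ) : 0 < capRc c n i := by
  unfold capRc
  have h1 : 0 ≤ c^2*((tag n i)^2 + (tag n i)^4)/4 := by positivity
  have h2 : 0 ≤ c^4 := by positivity
  have h3 : 0 ≤ c*(2/(n:ℝ)) := by positivity
  linarith

/-- **E1 in interface shape**: with tilt `c = 1/100`, any number `n ≥ 1` of intervals,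
uniform tags and margin `c⁴ + c·(2/n)`: every point of the tetrahedron lies in a lower
cylinder, or its image under `(x,y,τ) ↦ (-y,x,1-τ)` does. -/
theorem core_cover (n : ℕ) (hn : 1 ≤ n) (x y τ : ℝ) (hy : |y| ≤ τ) (hx : |x| ≤ 1 - τ) :
    (∃ i, i ≤ n ∧ inLower (1/100) n i x y τ) ∨
    (∃ j, j ≤ n ∧ inLower (1/100) n j (-y) x (1-τ)) := by
  have hn0 : (0:ℝ) < n := by positivity
  have hh : (0:ℝ) ≤ 2/(n:ℝ) := by positivity
  have hm : (1:ℝ)/10^8 + (2/(n:ℝ))/100 ≤ (1/100:ℝ)^4 + (1/100:ℝ)*(2/(n:ℝ)) := by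
    have : (1:ℝ)/10^8 = (1/100:ℝ)^4 := by norm_num
    rw [this]; linarith
  have hT0 : tagSeq n 0 = -1 := by simp [tagSeq, tag_zero]
  have hT1 : tagSeq n 1 = -1 := by simp [tagSeq, tag_zero]
  have hTn1 : tagSeq n (n+1) = 1 := by simp [tagSeq, tag_self n hn]
  have hTn2 : tagSeq n (n+2) = 1 := by
    unfold tagSeq
    rw [show min (n + 2 - 1) n = n by omega, tag_self n hn]
  have hTabs : ∀ k, |tagSeq n k| ≤ 1 := fun k => tag_mem n _ hn (Nat.min_le_right _ _)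
  have hTstep : ∀ k, |tagSeq n (k+1) - tagSeq n k| ≤ 2/(n:ℝ) := by
    intro k
    unfold tagSeq
    rcases Nat.eq_zero_or_pos k with h0 | hpos
    · subst h0; simp; exact hh
    · by_cases hk : k ≤ n
      · have e1 : min (k + 1 - 1) n = (k - 1) + 1 := by omega
        have e2 : min (k - 1) n = k - 1 := by omega
        rw [e1, e2, tag_succ n (k-1) hn]
        rw [abs_le]; constructor <;> linarith
      · have e1 : min (k + 1 - 1) n = n := by omega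
        have e2 : min (k - 1) n = n := by omega
        rw [e1, e2]; simp; exact hh
  -- translate cylinder descriptions
  have trans : ∀ i, i ≤ n → ∀ x y τ : ℝ,
      InLow ((1/100:ℝ)^4 + (1/100:ℝ)*(2/(n:ℝ))) (tagSeq n (i+1))
        ((tagSeq n i + tagSeq n (i+1))/2) ((tagSeq n (i+1) + tagSeq n (i+2))/2) x y τ →
      inLower (1/100) n i x y τ := by
    intro i hi x y τ ⟨h1, h2, h3⟩
    have ei : tagSeq n (i+1) = tag n i := by
      unfold tagSeq
      rw [show min (i + 1 - 1) n = i by omega]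
    have eL : (tagSeq n i + tagSeq n (i+1))/2 = thatL n i := by
      rw [ei]; unfold thatL tagSeq
      by_cases h0 : i = 0
      · subst h0
        rw [if_pos rfl, show min (0 - 1) n = 0 by omega, tag_zero]; norm_num
      · have : min (i - 1) n = i - 1 := by omega
        rw [if_neg h0, this]
    have eR : (tagSeq n (i+1) + tagSeq n (i+2))/2 = thatR n i := by
      rw [ei]; unfold thatR tagSeq
      by_cases h0 : i = n
      · subst h0
        have : min (i + 2 - 1) i = i := by omega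
        rw [if_pos rfl, this, tag_self i hn]; norm_num
      · have : min (i + 2 - 1) n = i + 1 := by omega
        rw [if_neg h0, this]
    rw [eL, ei] at h1
    rw [eR, ei] at h2
    rw [ei] at h3
    refine ⟨?_, ?_, ?_⟩
    · unfold wt wy; linarith
    · unfold wt wy; linarith
    · unfold wt capRc; unfold capR at h3; linarith
  rcases cover' n (tagSeq n) (2/(n:ℝ)) _ hh hm hT0 hT1 hTn1 hTn2 hTabs hTstep x y τ hy hx with
    ⟨i, hi, hI⟩ | ⟨j, hj, hJ⟩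
  · exact Or.inl ⟨i, hi, trans i hi _ _ _ hI⟩
  · exact Or.inr ⟨j, hj, trans j hj _ _ _ hJ⟩

end CoverIneq
end Crest.Agent.S0324
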